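import Vale.Agent.P254.Defs

namespace Vale.Agent.P254

open MeasureTheory Set

variable {n : ℕ}

/-- first moments -/
noncomputable def mom1 (K : Set (Fin n → ℝ)) (i : Fin n) : ℝ := ∫ x in K, x i

/-- second moments -/
noncomputable def mom2 (K : Set (Fin n → ℝ)) (i j : Fin n) : ℝ := ∫ x in K, x i * x j

/-- `det Σ_K / |K|²` -/
noncomputable def isoQ (K : Set (Fin n → ℝ)) : ℝ := (covMat K).det / (vol K) ^ 2

lemma isoConst_eq (K : Set (Fin n → ℝ)) : isoConst K = (isoQ K) ^ (1 / (2 * (n : ℝ))) := rfl

lemma integrableOn_coord {K : Set (Fin n → ℝ)} (hK : IsCompact K) (i : Fin n) :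
    IntegrableOn (fun x : Fin n → ℝ => x i) K volume :=
  (continuous_apply i).continuousOn.integrableOn_compact hK

lemma integrableOn_coord_mul {K : Set (Fin n → ℝ)} (hK : IsCompact K) (i j : Fin n) :
    IntegrableOn (fun x : Fin n → ℝ => x i * x j) K volume :=
  ((continuous_apply i).mul (continuous_apply j)).continuousOn.integrableOn_compact hK

lemma vol_eq_integral (K : Set (Fin n → ℝ)) : vol K = ∫ _x in K, (1 : ℝ) := by
  simp [vol, Measure.real]

lemma covMat_apply_eq {K : Set (Fin n → ℝ)} (hK : IsCompact K) (hv : vol K ≠ 0) (i j : Fin n) :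
    covMat K i j = mom2 K i j / vol K - (mom1 K i / vol K) * (mom1 K j / vol K) := by
  have hc : ∀ i, centroid K i = mom1 K i / vol K := by
    intro i; simp [centroid, mom1, div_eq_inv_mul]
  have h1 : ∫ x in K, (x i - centroid K i) * (x j - centroid K j)
      = mom2 K i j - centroid K j * mom1 K i - centroid K i * mom1 K j
        + centroid K i * centroid K j * vol K := by
    have e : ∀ x : Fin n → ℝ, (x i - centroid K i) * (x j - centroid K j)
        = x i * x j - centroid K j * x i - centroid K i * x j
          + centroid K i * centroid K j * 1 := by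
      intro x; ring
    simp_rw [e]
    have hfin : IntegrableOn (fun _ : Fin n → ℝ => (1 : ℝ)) K volume :=
      continuous_const.continuousOn.integrableOn_compact hK
    rw [integral_add, integral_sub, integral_sub, integral_const_mul, integral_const_mul,
      integral_const_mul, ← vol_eq_integral]
    · rfl
    · exact integrableOn_coord_mul hK i j
    · exact (integrableOn_coord hK i).const_mul _
    · exact (integrableOn_coord_mul hK i j).sub ((integrableOn_coord hK i).const_mul _)
    · exact (integrableOn_coord hK j).const_mul _
    · exact ((integrableOn_coord_mul hK i j).sub ((integrableOn_coord hK i).const_mul _)).sub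
        ((integrableOn_coord hK j).const_mul _)
    · exact hfin.const_mul _
  simp only [covMat, Matrix.of_apply]
  rw [h1, hc, hc]
  field_simp
  ring

lemma covMat_posSemidef {K : Set (Fin n → ℝ)} (hK : IsCompact K) : (covMat K).PosSemidef := by
  refine Matrix.PosSemidef.of_dotProduct_mulVec_nonneg ?_ ?_
  · ext i j
    simp only [covMat, Matrix.conjTranspose_apply, Matrix.of_apply, star_trivial]
    congr 1
    refine integral_congr_ae (Filter.Eventually.of_forall fun x => ?_)
    simp only
    ring
  · intro y
    have hint : ∀ i j, IntegrableOn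
        (fun x : Fin n → ℝ => (x i - centroid K i) * (x j - centroid K j)) K volume := by
      intro i j
      exact (((continuous_apply i).sub continuous_const).mul
        ((continuous_apply j).sub continuous_const)).continuousOn.integrableOn_compact hK
    have key : star y ⬝ᵥ (covMat K).mulVec y
        = (vol K)⁻¹ * ∫ x in K, (∑ i, y i * (x i - centroid K i)) ^ 2 := by
      have e : ∀ x : Fin n → ℝ, (∑ i, y i * (x i - centroid K i)) ^ 2
          = ∑ i, ∑ j, y i * y j * ((x i - centroid K i) * (x j - centroid K j)) := by
        intro x
        rw [sq, Finset.sum_mul_sum]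
        refine Finset.sum_congr rfl fun i _ => Finset.sum_congr rfl fun j _ => ?_
        ring
      simp_rw [e]
      rw [integral_finsetSum _ (fun i _ => integrable_finsetSum _
        (fun j _ => (hint i j).const_mul _))]
      simp_rw [integral_finsetSum _ (fun j _ => (hint _ j).const_mul _), integral_const_mul]
      simp only [dotProduct, Matrix.mulVec, covMat, Matrix.of_apply, star_trivial,
        Finset.mul_sum]
      refine Finset.sum_congr rfl fun i _ => Finset.sum_congr rfl fun j _ => ?_
      ring
    rw [key]
    refine mul_nonneg (inv_nonneg.mpr ENNReal.toReal_nonneg) (integral_nonneg fun x => sq_nonneg _)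

lemma isoQ_nonneg {K : Set (Fin n → ℝ)} (hK : IsCompact K) : 0 ≤ isoQ K :=
  div_nonneg (covMat_posSemidef hK).det_nonneg (sq_nonneg _)

end Vale.Agent.P254
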