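import Vale.Agent.P254.Profile

namespace Vale.Agent.P254

open MeasureTheory Set Pointwise

variable {n : ℕ}

/-- the one-dimensional weights -/
noncomputable def Jw (ρ : ℝ → ℝ) (a m : ℕ) : ℝ := ∫ t in Ioo (0 : ℝ) 1, t ^ a * ρ t ^ m

section profile
variable {K : Set (Fin n → ℝ)} (hK : IsCompact K) {ρ : ℝ → ℝ} (hρ : Continuous ρ)
  (hpos : ∀ t ∈ Ioo (0 : ℝ) 1, 0 < ρ t)
include hK hρ hpos

lemma vol_profile : vol (profileSet ρ K) = Jw ρ 0 n * vol K := by
  have := integral_profile hK hρ hpos (fun t => t ^ 0) (by fun_prop) (fun _ => 1) (by fun_prop) 0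
    (by intro r x; simp)
  simp only [add_zero] at this
  rw [vol_eq_integral, vol_eq_integral, Jw, ← this]
  simp

lemma mom1_profile_zero : mom1 (profileSet ρ K) 0 = Jw ρ 1 n * vol K := by
  have := integral_profile hK hρ hpos (fun t => t ^ 1) (by fun_prop) (fun _ => 1) (by fun_prop) 0
    (by intro r x; simp)
  simp only [add_zero] at this
  rw [vol_eq_integral, Jw, mom1, ← this]
  simp

lemma mom1_profile_succ (i : Fin n) :
    mom1 (profileSet ρ K) i.succ = Jw ρ 0 (n + 1) * mom1 K i := by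
  have := integral_profile hK hρ hpos (fun t => t ^ 0) (by fun_prop) (fun y => y i)
    (by fun_prop) 1 (by intro r x; simp)
  rw [Jw, mom1, mom1, ← this]
  simp [Fin.tail]

lemma mom2_profile_zero_zero : mom2 (profileSet ρ K) 0 0 = Jw ρ 2 n * vol K := by
  have := integral_profile hK hρ hpos (fun t => t ^ 2) (by fun_prop) (fun _ => 1) (by fun_prop) 0
    (by intro r x; simp)
  simp only [add_zero] at this
  rw [vol_eq_integral, Jw, mom2, ← this]
  simp [sq]

lemma mom2_profile_zero_succ (i : Fin n) :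
    mom2 (profileSet ρ K) 0 i.succ = Jw ρ 1 (n + 1) * mom1 K i := by
  have := integral_profile hK hρ hpos (fun t => t ^ 1) (by fun_prop) (fun y => y i)
    (by fun_prop) 1 (by intro r x; simp)
  rw [Jw, mom2, mom1, ← this]
  simp [Fin.tail]

lemma mom2_profile_succ_succ (i j : Fin n) :
    mom2 (profileSet ρ K) i.succ j.succ = Jw ρ 0 (n + 2) * mom2 K i j := by
  have := integral_profile hK hρ hpos (fun t => t ^ 0) (by fun_prop) (fun y => y i * y j)
    (by fun_prop) 2 (by intro r x; simp; ring)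
  rw [Jw, mom2, mom2, ← this]
  simp [Fin.tail]

end profile

lemma mom2_comm (K : Set (Fin n → ℝ)) (i j : Fin n) : mom2 K i j = mom2 K j i := by
  unfold mom2; simp_rw [mul_comm]

lemma integral_Ioo_pow (m : ℕ) : ∫ t in Ioo (0 : ℝ) 1, t ^ m = 1 / ((m : ℝ) + 1) := by
  rw [← integral_Ioc_eq_integral_Ioo, ← intervalIntegral.integral_of_le zero_le_one, integral_pow]
  simp

lemma Jw_id (a m : ℕ) : Jw (fun t => t) a m = 1 / ((a : ℝ) + m + 1) := by
  unfold Jw
  simp_rw [← pow_add]
  rw [integral_Ioo_pow]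
  push_cast
  ring

/-- The cone with apex `0` over the copy `{1} × K` of `K`. -/
def cone0 (K : Set (Fin n → ℝ)) : Set (Fin (n + 1) → ℝ) := profileSet (fun t => t) K

lemma isCompact_cone0 {K : Set (Fin n → ℝ)} (hK : IsCompact K) : IsCompact (cone0 K) :=
  isCompact_profileSet continuous_id' hK

lemma vol_cone0 {K : Set (Fin n → ℝ)} (hK : IsCompact K) :
    vol (cone0 K) = vol K / ((n : ℝ) + 1) := by
  rw [cone0, vol_profile hK continuous_id' (fun t ht => ht.1), Jw_id]
  push_cast
  ring

/-- The determinant of a bordered matrix. -/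
lemma det_bordered (v c : ℝ) (b : Fin n → ℝ) (S : Matrix (Fin n) (Fin n) ℝ)
    (A : Matrix (Fin (n + 1)) (Fin (n + 1)) ℝ)
    (h00 : A 0 0 = v) (h0s : ∀ j, A 0 (Fin.succ j) = v * b j)
    (hs0 : ∀ i, A (Fin.succ i) 0 = v * b i)
    (hss : ∀ i j, A (Fin.succ i) (Fin.succ j) = c * S i j + v * b i * b j) :
    A.det = v * c ^ n * S.det := by
  let B : Matrix (Fin (n + 1)) (Fin (n + 1)) ℝ := Matrix.of fun i j =>
    Fin.cases (Fin.cases v (fun j' => v * b j') j)
      (fun i' => Fin.cases 0 (fun j' => c * S i' j') j) i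
  have hAB : A.det = B.det := by
    refine Matrix.det_eq_of_forall_row_eq_smul_add_const (Fin.cons 0 b) 0 (by simp) ?_
    intro i j
    refine Fin.cases ?_ (fun i' => ?_) i <;> refine Fin.cases ?_ (fun j' => ?_) j
    · simp [B, h00]
    · simp [B, h0s]
    · simp [B, hs0]; ring
    · simp [B, hss]; ring
  rw [hAB, Matrix.det_succ_column_zero, Fin.sum_univ_succ]
  have hz : ∀ i : Fin n, (-1 : ℝ) ^ (i.succ : ℕ) * B i.succ 0 *
      (B.submatrix i.succ.succAbove Fin.succ).det = 0 := by
    intro i; simp [B]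
  rw [Finset.sum_eq_zero (fun i _ => hz i)]
  have hsub : B.submatrix (Fin.succAbove 0) Fin.succ = c • S := by
    ext i j; simp [B]
  rw [hsub, Matrix.det_smul]
  simp [B]
  ring

lemma isoQ_cone0 {K : Set (Fin n → ℝ)} (hK : IsCompact K) (hv : vol K ≠ 0) :
    isoQ (cone0 K)
      = ((n : ℝ) + 1) ^ (n + 3) / (((n : ℝ) + 2) ^ 2 * ((n : ℝ) + 3) ^ (n + 1)) * isoQ K := by
  have hn1 : ((n : ℝ) + 1) ≠ 0 := by positivity
  have hn2 : ((n : ℝ) + 2) ≠ 0 := by positivity
  have hn3 : ((n : ℝ) + 3) ≠ 0 := by positivity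
  have hv' : vol (cone0 K) ≠ 0 := by
    rw [vol_cone0 hK]; exact div_ne_zero hv hn1
  have hpos : ∀ t ∈ Ioo (0 : ℝ) 1, 0 < (fun t : ℝ => t) t := fun t ht => ht.1
  have hc := isCompact_cone0 hK
  have hdet : (covMat (cone0 K)).det
      = (((n : ℝ) + 1) / (((n : ℝ) + 3) * ((n : ℝ) + 2) ^ 2)) * (((n : ℝ) + 1) / ((n : ℝ) + 3)) ^ n
        * (covMat K).det := by
    refine det_bordered _ _ (fun i => mom1 K i / vol K) (covMat K) _ ?_ ?_ ?_ ?_
    · rw [covMat_apply_eq hc hv', vol_cone0 hK, cone0,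
        mom2_profile_zero_zero hK continuous_id' hpos, mom1_profile_zero hK continuous_id' hpos,
        Jw_id, Jw_id]
      push_cast
      field_simp
      ring
    · intro j
      rw [covMat_apply_eq hc hv', vol_cone0 hK, cone0,
        mom2_profile_zero_succ hK continuous_id' hpos, mom1_profile_zero hK continuous_id' hpos,
        mom1_profile_succ hK continuous_id' hpos, Jw_id, Jw_id, Jw_id]
      push_cast
      field_simp
      ring
    · intro j
      rw [covMat_apply_eq hc hv', vol_cone0 hK, cone0, mom2_comm,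
        mom2_profile_zero_succ hK continuous_id' hpos, mom1_profile_zero hK continuous_id' hpos,
        mom1_profile_succ hK continuous_id' hpos, Jw_id, Jw_id, Jw_id]
      push_cast
      field_simp
      ring
    · intro i j
      rw [covMat_apply_eq hc hv', covMat_apply_eq hK hv, vol_cone0 hK, cone0,
        mom2_profile_succ_succ hK continuous_id' hpos,
        mom1_profile_succ hK continuous_id' hpos, mom1_profile_succ hK continuous_id' hpos,
        Jw_id, Jw_id]
      push_cast
      field_simp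
      ring
  unfold isoQ
  rw [hdet, vol_cone0 hK, div_pow ((n : ℝ) + 1) ((n : ℝ) + 3) n]
  field_simp
  ring

end Vale.Agent.P254
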