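import Vale.Agent.P254.Geom

namespace Vale.Agent.P254

open MeasureTheory Set Pointwise

variable {n : ℕ}

lemma mem_convexHull_range_iff {ι : Type*} [Fintype ι] {V : Type*} [AddCommGroup V]
    [Module ℝ V] {w : ι → V} {x : V} :
    x ∈ convexHull ℝ (range w) ↔
      ∃ μ : ι → ℝ, (∀ i, 0 ≤ μ i) ∧ ∑ i, μ i = 1 ∧ ∑ i, μ i • w i = x := by
  classical
  constructor
  · intro hx
    have hconv : Convex ℝ {x : V | ∃ μ : ι → ℝ, (∀ i, 0 ≤ μ i) ∧ ∑ i, μ i = 1 ∧
        ∑ i, μ i • w i = x} := by
      rintro x ⟨μ, hμ0, hμ1, rfl⟩ y ⟨ν, hν0, hν1, rfl⟩ a b ha hb hab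
      refine ⟨fun i => a * μ i + b * ν i,
        fun i => add_nonneg (mul_nonneg ha (hμ0 i)) (mul_nonneg hb (hν0 i)), ?_, ?_⟩
      · rw [Finset.sum_add_distrib, ← Finset.mul_sum, ← Finset.mul_sum, hμ1, hν1]; simpa using hab
      · simp_rw [add_smul, mul_smul]
        rw [Finset.sum_add_distrib, ← Finset.smul_sum, ← Finset.smul_sum]
    have hsub : range w ⊆ {x : V | ∃ μ : ι → ℝ, (∀ i, 0 ≤ μ i) ∧ ∑ i, μ i = 1 ∧
        ∑ i, μ i • w i = x} := by
      rintro _ ⟨i, rfl⟩
      refine ⟨fun j => if j = i then 1 else 0, fun j => by dsimp only; split_ifs <;> norm_num, by simp, by simp⟩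
    exact convexHull_min hsub hconv hx
  · rintro ⟨μ, h0, h1, rfl⟩
    exact mem_convexHull_of_exists_fintype μ w h0 h1 (fun i => mem_range_self i) rfl

lemma sum_dite_mem_eq {ι : Type*} [Fintype ι] [DecidableEq ι] {M : Type*} [AddCommMonoid M]
    (I : Finset ι) (g : I → M) :
    ∑ j, (if h : j ∈ I then g ⟨j, h⟩ else 0) = ∑ i : I, g i := by
  rw [← Finset.sum_subset (Finset.subset_univ I) (fun j _ hj => dif_neg hj),
    ← Finset.sum_coe_sort I]
  refine Finset.sum_congr rfl fun j _ => ?_
  simp

lemma lift1_zero (x : Fin n → ℝ) : lift1 x 0 = 1 := by simp [lift1]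

lemma lift1_succ (x : Fin n → ℝ) (j : Fin n) : lift1 x j.succ = x j := by simp [lift1]

lemma lift1_tail {p : Fin (n + 1) → ℝ} (hp : p 0 = 1) : lift1 (Fin.tail p) = p := by
  ext i
  refine Fin.cases ?_ (fun j => ?_) i
  · simp [lift1, hp]
  · simp [lift1, Fin.tail]

lemma lift1_injective : Function.Injective (lift1 : (Fin n → ℝ) → (Fin (n + 1) → ℝ)) := by
  intro x y h
  ext j
  have := congrFun h j.succ
  simpa [lift1] using this

lemma cone0_apply_zero_le {K : Set (Fin n → ℝ)} {p : Fin (n + 1) → ℝ} (hp : p ∈ cone0 K) :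
    p 0 ≤ 1 := by
  obtain ⟨s, hs, x, _, rfl⟩ := mem_cone0.mp hp
  simpa [lift1] using hs.2

lemma tail_mem_of_mem_cone0 {K : Set (Fin n → ℝ)} {p : Fin (n + 1) → ℝ} (hp : p ∈ cone0 K)
    (h1 : p 0 = 1) : Fin.tail p ∈ K := by
  obtain ⟨s, hs, x, hx, rfl⟩ := mem_cone0.mp hp
  have hs1 : s = 1 := by simpa [lift1] using h1
  subst hs1
  have : Fin.tail ((1 : ℝ) • lift1 x) = x := by
    ext j; simp [Fin.tail, lift1]
  rw [this]; exact hx

lemma lift1_mem_cone0 {K : Set (Fin n → ℝ)} {x : Fin n → ℝ} (hx : x ∈ K) :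
    lift1 x ∈ cone0 K :=
  mem_cone0.mpr ⟨1, ⟨zero_le_one, le_rfl⟩, x, hx, by simp⟩

/-- If the cone over a convex body is a simplex, so is the body. -/
lemma isSimplex_of_cone0 {K : Set (Fin n → ℝ)} (hK : IsConvexBody K)
    (hS : IsSimplex (cone0 K)) : IsSimplex K := by
  classical
  obtain ⟨w, hw, hKw⟩ := hS
  have hwmem : ∀ i, w i ∈ cone0 K := fun i => by
    rw [hKw]; exact subset_convexHull ℝ _ (mem_range_self i)
  let I : Finset (Fin (n + 1 + 1)) := Finset.univ.filter (fun i => w i 0 = 1)
  let y : I → (Fin n → ℝ) := fun i => Fin.tail (w i)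
  have hI : ∀ i : I, w i 0 = 1 := fun i => (Finset.mem_filter.mp i.2).2
  have hy : ∀ i : I, lift1 (y i) = w i := fun i => lift1_tail (hI i)
  have hyK : ∀ i : I, y i ∈ K := fun i => tail_mem_of_mem_cone0 (hwmem i) (hI i)
  have hKeq : K = convexHull ℝ (range y) := by
    apply Subset.antisymm
    · intro x hx
      have hx' : lift1 x ∈ convexHull ℝ (range w) := by rw [← hKw]; exact lift1_mem_cone0 hx
      obtain ⟨μ, hμ0, hμ1, hμx⟩ := mem_convexHull_range_iff.mp hx'
      have h0 : ∑ i, μ i * (1 - w i 0) = 0 := by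
        have := congrFun hμx 0
        simp only [Finset.sum_apply, Pi.smul_apply, smul_eq_mul, lift1_zero] at this
        simp_rw [mul_sub, mul_one]
        rw [Finset.sum_sub_distrib, hμ1, this, sub_self]
      have hterm : ∀ i, μ i * (1 - w i 0) = 0 := by
        intro i
        exact (Finset.sum_eq_zero_iff_of_nonneg (fun i _ => mul_nonneg (hμ0 i)
          (sub_nonneg.mpr (cone0_apply_zero_le (hwmem i))))).mp h0 i (Finset.mem_univ i)
      have hout : ∀ i, i ∉ I → μ i = 0 := by
        intro i hi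
        rcases mul_eq_zero.mp (hterm i) with h | h
        · exact h
        · exfalso; apply hi
          simp only [I, Finset.mem_filter, Finset.mem_univ, true_and]
          linarith
      rw [mem_convexHull_range_iff]
      refine ⟨fun i => μ i, fun i => hμ0 i, ?_, ?_⟩
      · rw [← hμ1]
        rw [Finset.sum_coe_sort I (fun i => μ i)]
        exact Finset.sum_subset (Finset.subset_univ _) (fun i _ hi => hout i hi)
      · apply lift1_injective
        rw [← hμx]
        have e1 : ∑ i, μ i • w i = ∑ i ∈ I, μ i • w i := by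
          symm
          exact Finset.sum_subset (Finset.subset_univ _)
            (fun i _ hi => by rw [hout i hi, zero_smul])
        rw [e1, ← Finset.sum_coe_sort I (fun i => μ i • w i)]
        have hsum1 : ∑ i : I, μ i = 1 := by
          rw [← hμ1, Finset.sum_coe_sort I (fun i => μ i)]
          exact Finset.sum_subset (Finset.subset_univ _) (fun i _ hi => hout i hi)
        ext j
        refine Fin.cases ?_ (fun k => ?_) j
        · rw [lift1_zero]
          simp only [Finset.sum_apply, Pi.smul_apply, smul_eq_mul, hI, mul_one]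
          exact hsum1.symm
        · rw [lift1_succ]
          simp only [Finset.sum_apply, Pi.smul_apply, smul_eq_mul]
          rfl
    · exact convexHull_min (by rintro _ ⟨i, rfl⟩; exact hyK i) hK.2.1
  have hyind : AffineIndependent ℝ y := by
    rw [affineIndependent_iff_fintype] at hw ⊢
    intro c h0 h1 i
    have key := hw (fun j => if h : j ∈ I then c ⟨j, h⟩ else 0) ?_ ?_ i
    · simpa using key
    · rw [sum_dite_mem_eq I c]; exact h0
    · have e2 : ∀ j, (if h : j ∈ I then c ⟨j, h⟩ else 0) • w j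
          = if h : j ∈ I then c ⟨j, h⟩ • lift1 (y ⟨j, h⟩) else 0 := by
        intro j
        by_cases h : j ∈ I
        · simp only [dif_pos h]; rw [hy]
        · simp only [dif_neg h, zero_smul]
      simp_rw [e2]
      rw [sum_dite_mem_eq I (fun j => c j • lift1 (y j))]
      ext k
      refine Fin.cases ?_ (fun l => ?_) k
      · simp only [Finset.sum_apply, Pi.smul_apply, smul_eq_mul, lift1_zero, mul_one]
        simpa using h0
      · simp only [Finset.sum_apply, Pi.smul_apply, smul_eq_mul, lift1_succ]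
        have := congrFun h1 l
        simpa using this
  have hcard : Fintype.card I = n + 1 := by
    have hspan : affineSpan ℝ (range y) = ⊤ := by
      rw [← interior_convexHull_nonempty_iff_affineSpan_eq_top, ← hKeq]
      exact hK.2.2
    have := (hyind.affineSpan_eq_top_iff_card_eq_finrank_add_one).mp hspan
    simpa using this
  let e : Fin (n + 1) ≃ I := (Fintype.equivFinOfCardEq hcard).symm
  refine ⟨y ∘ e, hyind.comp_embedding e.toEmbedding, ?_⟩
  rw [hKeq, e.surjective.range_comp]

end Vale.Agent.P254
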