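import Mathlib

/-!
# P254: basic definitions for the isotropic constant

We model `ℝⁿ` as `Fin n → ℝ` with its Lebesgue (product) measure `volume`.
-/

namespace Vale.Agent.P254

open MeasureTheory Set

variable {n : ℕ}

/-- Lebesgue volume of `K ⊆ ℝⁿ`, as a real number. -/
noncomputable def vol (K : Set (Fin n → ℝ)) : ℝ := (volume K).toReal

/-- The centroid `b_K = |K|⁻¹ ∫_K x dx` (coordinatewise). -/
noncomputable def centroid (K : Set (Fin n → ℝ)) : Fin n → ℝ :=
  fun i => (vol K)⁻¹ * ∫ x in K, x i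

/-- The covariance matrix `Σ_K = |K|⁻¹ ∫_K (x - b_K)(x - b_K)ᵀ dx`. -/
noncomputable def covMat (K : Set (Fin n → ℝ)) : Matrix (Fin n) (Fin n) ℝ :=
  Matrix.of fun i j => (vol K)⁻¹ * ∫ x in K, (x i - centroid K i) * (x j - centroid K j)

/-- The isotropic constant `L_K = (det Σ_K / |K|²)^(1/(2n))`. -/
noncomputable def isoConst (K : Set (Fin n → ℝ)) : ℝ :=
  ((covMat K).det / (vol K) ^ 2) ^ (1 / (2 * (n : ℝ)))

/-- Convex body: compact convex set with nonempty interior. -/
def IsConvexBody (K : Set (Fin n → ℝ)) : Prop :=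
  IsCompact K ∧ Convex ℝ K ∧ (interior K).Nonempty

/-- An `n`-simplex: the convex hull of `n + 1` affinely independent points of `ℝⁿ`. -/
def IsSimplex (S : Set (Fin n → ℝ)) : Prop :=
  ∃ v : Fin (n + 1) → (Fin n → ℝ), AffineIndependent ℝ v ∧ S = convexHull ℝ (range v)

/-- The strong isotropic constant conjecture in dimension `n`: every convex body `K ⊆ ℝⁿ` has
`L_K ≤ L_S` for every `n`-simplex `S`, with equality only if `K` is a simplex. -/
def StrongConj (n : ℕ) : Prop :=
  ∀ K : Set (Fin n → ℝ), IsConvexBody K → ∀ S : Set (Fin n → ℝ), IsSimplex S →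
    isoConst K ≤ isoConst S ∧ (isoConst K = isoConst S → IsSimplex K)

/-- The pyramid in `ℝⁿ⁺¹` with apex `0` over the copy `{1} × K` of `K ⊆ ℝⁿ`. -/
def pyramid (K : Set (Fin n → ℝ)) : Set (Fin (n + 1) → ℝ) :=
  convexHull ℝ (insert 0 ((fun x : Fin n → ℝ => (Fin.cons 1 x : Fin (n + 1) → ℝ)) '' K))

end Vale.Agent.P254
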