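import Mathlib

namespace Vale.Agent.P254

lemma det_hat (N : ℕ) (p m : Fin N → ℝ) (s Qp Qm : ℝ) (hs : s ≠ 0) (hp : ∑ r, p r = s) (hm : ∑ r, m r = 1 - s) (hpp : ∑ r, p r ^ 2 = Qp) (hmm : ∑ r, m r ^ 2 = Qm) (hpm : ∑ r, p r * m r = 0) :
    (Matrix.of fun r c : Fin N => (if r = c then (1:ℝ) else 0) + (p r + m r) * (p c + m c) + (1 + p r + m r) * (1 + p c + m c) - ((1 + p r + m r) * p c + p r * (1 + p c + m c)) / s - (((N:ℝ) + 2) / ((N:ℝ) + 1)) * (1 + p r + m r - p r / s) * (1 + p c + m c - p c / s)).det = ((1 + Qm) + Qp - (1 + Qm) * Qp / s ^ 2) / ((N:ℝ) + 1) := by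
  have hN : ((N:ℝ) + 1) ≠ 0 := by positivity
  set κ : ℝ := ((N:ℝ) + 2) / ((N:ℝ) + 1) with hκ
  let U : Matrix (Fin N) (Fin 3) ℝ := Matrix.of fun r j => ![1, p r, m r] j
  let C : Matrix (Fin 3) (Fin 3) ℝ :=
    !![1 - κ, (1 - κ) * (1 - 1 / s), 1 - κ;
       (1 - κ) * (1 - 1 / s), 2 - 2 / s - κ * (1 - 1 / s) ^ 2, 2 - 1 / s - κ * (1 - 1 / s);
       1 - κ, 2 - 1 / s - κ * (1 - 1 / s), 2 - κ]
  let G : Matrix (Fin 3) (Fin 3) ℝ :=
    !![(N:ℝ), s, 1 - s;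
       s, Qp, 0;
       1 - s, 0, Qm]
  have hG : U.transpose * U = G := by
    ext i j
    fin_cases i <;> fin_cases j <;>
      simp [U, G, Matrix.mul_apply, hp, hm, hpm, ← hpp, ← hmm, pow_two]
    · rw [← hpm]
      exact Finset.sum_congr rfl fun r _ => mul_comm _ _
  have hM : (Matrix.of fun r c : Fin N => (if r = c then (1:ℝ) else 0) + (p r + m r) * (p c + m c) + (1 + p r + m r) * (1 + p c + m c) - ((1 + p r + m r) * p c + p r * (1 + p c + m c)) / s - κ * (1 + p r + m r - p r / s) * (1 + p c + m c - p c / s)) = 1 + U * (C * U.transpose) := by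
    ext r c
    simp only [Matrix.of_apply, Matrix.add_apply, Matrix.one_apply, Matrix.mul_apply,
      Fin.sum_univ_three, Matrix.transpose_apply, U, C]
    simp
    ring
  rw [hM, Matrix.det_one_add_mul_comm, Matrix.mul_assoc, hG, Matrix.det_fin_three]
  simp [C, G]
  rw [hκ]
  field_simp
  ring

end Vale.Agent.P254
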