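import Vale.Agent.P254.Ratio

namespace Vale.Agent.P254

open MeasureTheory Set Pointwise

variable {n : ℕ}

lemma isSimplex_insert_of_nonneg {u : Fin (n + 1) → (Fin n → ℝ)} (hu : AffineIndependent ℝ u)
    {ζ : Fin (n + 1) → ℝ} (hζ : ∑ k, ζ k = 1) (h0 : ∀ k, 0 ≤ ζ k) :
    IsSimplex (convexHull ℝ (insert (∑ k, ζ k • u k) (range u))) := by
  refine ⟨u, hu, ?_⟩
  apply Subset.antisymm
  · refine convexHull_min ?_ (convex_convexHull ℝ _)
    rintro x (rfl | hx)
    · exact mem_convexHull_range_iff.mpr ⟨ζ, h0, hζ, rfl⟩
    · exact subset_convexHull ℝ _ hx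
  · exact convexHull_mono (subset_insert _ _)

lemma isSimplex_insert_of_one_pos {u : Fin (n + 1) → (Fin n → ℝ)} (hu : AffineIndependent ℝ u)
    {ζ : Fin (n + 1) → ℝ} (hζ : ∑ k, ζ k = 1) {k₀ : Fin (n + 1)} (hk₀ : 0 < ζ k₀)
    (hneg : ∀ k, k ≠ k₀ → ζ k ≤ 0) :
    IsSimplex (convexHull ℝ (insert (∑ k, ζ k • u k) (range u))) := by
  classical
  set z := ∑ k, ζ k • u k with hz
  refine ⟨Function.update u k₀ z, ?_, ?_⟩
  · rw [affineIndependent_iff_fintype] at hu ⊢
    intro c h0 h1
    have e1 : ∑ k, c k • Function.update u k₀ z k = ∑ k, (c k + c k₀ * ζ k - (if k = k₀ then c k₀ else 0)) • u k := by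
      have : ∀ k, c k • Function.update u k₀ z k
          = c k • u k + (if k = k₀ then c k₀ • z - c k₀ • u k₀ else 0) := by
        intro k
        by_cases h : k = k₀
        · subst h; simp
        · simp [h]
      simp_rw [this]
      rw [Finset.sum_add_distrib, Finset.sum_ite_eq' Finset.univ k₀]
      simp only [Finset.mem_univ, if_true]
      rw [hz, Finset.smul_sum]
      simp_rw [sub_smul, add_smul, mul_smul, ite_smul, zero_smul]
      rw [Finset.sum_sub_distrib, Finset.sum_add_distrib, Finset.sum_ite_eq' Finset.univ k₀]
      simp only [Finset.mem_univ, if_true]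
      abel
    rw [e1] at h1
    have h2 := hu (fun k => c k + c k₀ * ζ k - (if k = k₀ then c k₀ else 0)) (by
      rw [Finset.sum_sub_distrib, Finset.sum_add_distrib, ← Finset.mul_sum, hζ, h0,
        Finset.sum_ite_eq' Finset.univ k₀]
      simp) h1
    have h3 : c k₀ = 0 := by
      have := h2 k₀
      simp only [if_true] at this
      have h4 : c k₀ * ζ k₀ = 0 := by linarith
      rcases mul_eq_zero.mp h4 with h | h
      · exact h
      · exact absurd h hk₀.ne'
    intro k
    have := h2 k
    rw [h3] at this
    simpa using this
  · apply Subset.antisymm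
    · refine convexHull_min ?_ (convex_convexHull ℝ _)
      rintro x (rfl | ⟨k, rfl⟩)
      · exact subset_convexHull ℝ _ ⟨k₀, by simp⟩
      · by_cases h : k = k₀
        · subst h
          rw [mem_convexHull_range_iff]
          refine ⟨fun l => if l = k then 1 / ζ k else -ζ l / ζ k, ?_, ?_, ?_⟩
          · intro l
            dsimp only
            split_ifs with hl
            · positivity
            · exact div_nonneg (neg_nonneg.mpr (hneg l hl)) hk₀.le
          · have : ∀ l, (if l = k then 1 / ζ k else -ζ l / ζ k)
                = -ζ l / ζ k + (if l = k then (1 + ζ k) / ζ k else 0) := by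
              intro l
              split_ifs with hl
              · subst hl; field_simp; ring
              · ring
            simp_rw [this]
            rw [Finset.sum_add_distrib, Finset.sum_ite_eq' Finset.univ k, ← Finset.sum_div,
              Finset.sum_neg_distrib, hζ]
            simp only [Finset.mem_univ, if_true]
            field_simp
            ring
          · have : ∀ l, (if l = k then 1 / ζ k else -ζ l / ζ k) • Function.update u k z l
                = (-ζ l / ζ k) • u l + (if l = k then (1 / ζ k) • z + (ζ k / ζ k) • u k else 0) := by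
              intro l
              by_cases hl : l = k
              · subst hl
                simp only [if_true, Function.update_self]
                rw [neg_div, neg_smul]; abel
              · simp [hl]
            simp_rw [this]
            rw [Finset.sum_add_distrib, Finset.sum_ite_eq' Finset.univ k]
            simp only [Finset.mem_univ, if_true]
            rw [div_self hk₀.ne', one_smul, hz, Finset.smul_sum]
            have : ∀ l, (-ζ l / ζ k) • u l = -((1 / ζ k) • ζ l • u l) := by
              intro l; rw [smul_smul, ← neg_smul]; congr 1; ring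
            simp_rw [this]
            rw [Finset.sum_neg_distrib]
            abel
        · exact subset_convexHull ℝ _ ⟨k, by simp [h]⟩
    · refine convexHull_mono ?_
      rintro _ ⟨k, rfl⟩
      by_cases h : k = k₀
      · subst h; left; simp
      · right; exact ⟨k, by simp [h]⟩

lemma aN_pos (n : ℕ) : 0 < aN n := by unfold aN; positivity

/-- every simplex has `det Σ / vol² = aN n` -/
lemma isoQ_simplex {S : Set (Fin n → ℝ)} (hS : IsSimplex S) : isoQ S = aN n := by
  classical
  obtain ⟨u, hu, rfl⟩ := hS
  obtain ⟨ζ, hζ, hz, hQ⟩ := isoQ_insert hu (u 0)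
  have hins : insert (u 0) (range u) = range u := insert_eq_of_mem (mem_range_self 0)
  rw [hins] at hQ
  -- uniqueness of barycentric coordinates
  have hζ0 : ζ = Pi.single 0 1 := by
    rw [affineIndependent_iff_fintype] at hu
    have := hu (fun k => ζ k - (Pi.single 0 1 : Fin (n + 1) → ℝ) k) (by
      rw [Finset.sum_sub_distrib, hζ]; simp) (by
      simp_rw [sub_smul]
      rw [Finset.sum_sub_distrib, ← hz]
      simp [Pi.single_apply])
    ext k
    linarith [this k]
  have hR : ratioR ζ = 1 := by
    have hs : sPos ζ = 1 := by
      rw [hζ0, sPos]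
      have : ∀ j : Fin (n + 1), max ((Pi.single 0 1 : Fin (n + 1) → ℝ) j) 0
          = if j = 0 then 1 else 0 := by
        intro j; by_cases h : j = 0 <;> simp [h]
      simp_rw [this]; simp
    have hq : qPos ζ = 1 := by
      rw [hζ0, qPos]
      have : ∀ j : Fin (n + 1), (max ((Pi.single 0 1 : Fin (n + 1) → ℝ) j) 0) ^ 2
          = if j = 0 then 1 else 0 := by
        intro j; by_cases h : j = 0 <;> simp [h]
      simp_rw [this]; simp
    unfold ratioR
    rw [hs, hq]; ring
  rw [hQ, hR, mul_one]

end Vale.Agent.P254
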