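import Vale.Agent.P254.Cone

namespace Vale.Agent.P254

open MeasureTheory Set Pointwise

variable {n : ℕ}

/-- the lift `x ↦ (1, x)` -/
def lift1 (x : Fin n → ℝ) : Fin (n + 1) → ℝ := Fin.cons 1 x

lemma mem_cone0 {K : Set (Fin n → ℝ)} {p : Fin (n + 1) → ℝ} :
    p ∈ cone0 K ↔ ∃ s ∈ Icc (0 : ℝ) 1, ∃ x ∈ K, p = s • lift1 x := by
  have hc : ∀ (s : ℝ) (x : Fin n → ℝ),
      (Fin.cons s (s • x) : Fin (n + 1) → ℝ) = s • lift1 x := by
    intro s x
    ext i
    refine Fin.cases ?_ (fun j => ?_) i <;> simp [lift1]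
  constructor
  · rintro ⟨⟨s, x⟩, ⟨hs, hx⟩, rfl⟩
    exact ⟨s, hs, x, hx, hc s x⟩
  · rintro ⟨s, hs, x, hx, rfl⟩
    exact ⟨(s, x), ⟨hs, hx⟩, hc s x⟩

lemma lift1_combo (a b : ℝ) (hab : a + b = 1) (x y : Fin n → ℝ) :
    lift1 (a • x + b • y) = a • lift1 x + b • lift1 y := by
  ext i
  refine Fin.cases ?_ (fun j => ?_) i <;> simp [lift1, hab]

lemma convex_cone0 {K : Set (Fin n → ℝ)} (hK : Convex ℝ K) : Convex ℝ (cone0 K) := by
  intro p hp q hq a b ha hb hab
  obtain ⟨s, hs, x, hx, rfl⟩ := mem_cone0.mp hp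
  obtain ⟨t, ht, y, hy, rfl⟩ := mem_cone0.mp hq
  rw [mem_cone0]
  have hσ0 : 0 ≤ a * s + b * t := add_nonneg (mul_nonneg ha hs.1) (mul_nonneg hb ht.1)
  have hσ1 : a * s + b * t ≤ 1 := by
    calc a * s + b * t ≤ a * 1 + b * 1 :=
          add_le_add (mul_le_mul_of_nonneg_left hs.2 ha) (mul_le_mul_of_nonneg_left ht.2 hb)
      _ = 1 := by rw [mul_one, mul_one, hab]
  rcases hσ0.eq_or_lt with h0 | hpos
  · have h1 : a * s = 0 := by nlinarith [mul_nonneg ha hs.1, mul_nonneg hb ht.1]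
    have h2 : b * t = 0 := by nlinarith [mul_nonneg ha hs.1, mul_nonneg hb ht.1]
    refine ⟨0, ⟨le_rfl, zero_le_one⟩, x, hx, ?_⟩
    rw [smul_smul, smul_smul, h1, h2]; simp
  · refine ⟨a * s + b * t, ⟨hσ0, hσ1⟩,
      (a * s / (a * s + b * t)) • x + (b * t / (a * s + b * t)) • y, ?_, ?_⟩
    · refine hK hx hy (div_nonneg (mul_nonneg ha hs.1) hσ0) (div_nonneg (mul_nonneg hb ht.1) hσ0) ?_
      rw [← add_div, div_self hpos.ne']
    · rw [lift1_combo _ _ (by rw [← add_div, div_self hpos.ne']), smul_add, smul_smul, smul_smul,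
        smul_smul, smul_smul, mul_div_cancel₀ _ hpos.ne', mul_div_cancel₀ _ hpos.ne']

lemma lift1_mem_convexHull {X : Set (Fin n → ℝ)} {x : Fin n → ℝ} (hx : x ∈ convexHull ℝ X) :
    lift1 x ∈ convexHull ℝ (lift1 '' X) := by
  have hconv : Convex ℝ {x : Fin n → ℝ | lift1 x ∈ convexHull ℝ (lift1 '' X)} := by
    intro x hx y hy a b ha hb hab
    simp only [mem_ofPred_eq] at *
    rw [lift1_combo a b hab]
    exact convex_convexHull ℝ _ hx hy ha hb hab
  have hsub : X ⊆ {x : Fin n → ℝ | lift1 x ∈ convexHull ℝ (lift1 '' X)} :=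
    fun y hy => subset_convexHull ℝ _ (mem_image_of_mem lift1 hy)
  exact convexHull_min hsub hconv hx

/-- The cone over a convex hull is the convex hull of the apex and the lifted points. -/
lemma cone0_convexHull (X : Set (Fin n → ℝ)) (hX : X.Nonempty) :
    cone0 (convexHull ℝ X) = convexHull ℝ (insert 0 (lift1 '' X)) := by
  apply Subset.antisymm
  · intro p hp
    obtain ⟨s, hs, x, hx, rfl⟩ := mem_cone0.mp hp
    have h1 : lift1 x ∈ convexHull ℝ (insert 0 (lift1 '' X)) :=
      convexHull_mono (subset_insert _ _) (lift1_mem_convexHull hx)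
    have h0 : (0 : Fin (n + 1) → ℝ) ∈ convexHull ℝ (insert 0 (lift1 '' X)) :=
      subset_convexHull ℝ _ (mem_insert _ _)
    have := convex_convexHull ℝ _ h0 h1 (sub_nonneg.mpr hs.2) hs.1 (by ring)
    simpa using this
  · refine convexHull_min ?_ (convex_cone0 (convex_convexHull ℝ X))
    intro p hp
    rcases hp with rfl | ⟨x, hx, rfl⟩
    · obtain ⟨x, hx⟩ := hX
      exact mem_cone0.mpr ⟨0, ⟨le_rfl, zero_le_one⟩, x, subset_convexHull ℝ _ hx, by simp⟩
    · exact mem_cone0.mpr ⟨1, ⟨zero_le_one, le_rfl⟩, x, subset_convexHull ℝ _ hx, by simp⟩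

lemma IsConvexBody.vol_pos {K : Set (Fin n → ℝ)} (hK : IsConvexBody K) : 0 < vol K := by
  have h1 : 0 < volume K :=
    lt_of_lt_of_le (isOpen_interior.measure_pos volume hK.2.2) (measure_mono interior_subset)
  exact ENNReal.toReal_pos h1.ne' hK.1.measure_lt_top.ne

lemma isConvexBody_of_vol_pos {K : Set (Fin n → ℝ)} (hc : IsCompact K) (hconv : Convex ℝ K)
    (hv : 0 < vol K) : IsConvexBody K := by
  refine ⟨hc, hconv, ?_⟩
  by_contra hne
  rw [not_nonempty_iff_eq_empty] at hne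
  have h1 : K ⊆ frontier K := by
    intro x hx
    rw [frontier, hne, sdiff_empty]
    exact subset_closure hx
  have h2 : volume K = 0 := measure_mono_null h1 (hconv.addHaar_frontier volume)
  simp [vol, h2] at hv

lemma IsConvexBody.cone0 {K : Set (Fin n → ℝ)} (hK : IsConvexBody K) :
    IsConvexBody (cone0 K) := by
  refine isConvexBody_of_vol_pos (isCompact_cone0 hK.1) (convex_cone0 hK.2.1) ?_
  rw [vol_cone0 hK.1]
  exact div_pos hK.vol_pos (by positivity)

lemma affineIndependent_iff_fintype {ι : Type*} [Fintype ι] {V : Type*} [AddCommGroup V]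
    [Module ℝ V] {p : ι → V} :
    AffineIndependent ℝ p ↔
      ∀ c : ι → ℝ, ∑ i, c i = 0 → ∑ i, c i • p i = 0 → ∀ i, c i = 0 := by
  classical
  rw [affineIndependent_iff]
  constructor
  · intro h c h0 h1 i
    exact h Finset.univ c h0 h1 i (Finset.mem_univ i)
  · intro h s c h0 h1 i hi
    have := h (fun i => if i ∈ s then c i else 0)
      (by simpa [Finset.sum_ite_mem] using h0)
      (by simpa [ite_smul, Finset.sum_ite_mem] using h1) i
    simpa [hi] using this

lemma IsSimplex.isConvexBody {S : Set (Fin n → ℝ)} (hS : IsSimplex S) : IsConvexBody S := by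
  obtain ⟨v, hv, rfl⟩ := hS
  refine ⟨(finite_range v).isCompact_convexHull ℝ, convex_convexHull ℝ _, ?_⟩
  rw [interior_convexHull_nonempty_iff_affineSpan_eq_top,
    hv.affineSpan_eq_top_iff_card_eq_finrank_add_one]
  simp

lemma IsSimplex.cone0 {S : Set (Fin n → ℝ)} (hS : IsSimplex S) : IsSimplex (cone0 S) := by
  obtain ⟨v, hv, rfl⟩ := hS
  refine ⟨Fin.cons 0 (fun i => lift1 (v i)), ?_, ?_⟩
  · rw [affineIndependent_iff_fintype] at hv ⊢
    intro c h0 h1
    rw [Fin.sum_univ_succ] at h0 h1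
    simp only [Fin.cons_zero, Fin.cons_succ, smul_zero, zero_add] at h1
    have ha : ∑ i : Fin (n + 1), c i.succ = 0 := by
      have := congrFun h1 0
      simpa [lift1] using this
    have hb : ∑ i : Fin (n + 1), c i.succ • v i = 0 := by
      ext j
      have := congrFun h1 j.succ
      simpa [lift1] using this
    have hc := hv (fun i => c i.succ) ha hb
    intro i
    refine Fin.cases ?_ (fun j => hc j) i
    rw [ha, add_zero] at h0
    exact h0
  · rw [cone0_convexHull _ (range_nonempty v)]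
    congr 1
    ext p
    simp only [mem_insert_iff, mem_image, mem_range, exists_exists_eq_and]
    constructor
    · rintro (rfl | ⟨i, rfl⟩)
      · exact ⟨0, by simp⟩
      · exact ⟨i.succ, by simp⟩
    · rintro ⟨i, rfl⟩
      refine Fin.cases ?_ (fun j => ?_) i
      · left; simp
      · right; exact ⟨j, by simp⟩

end Vale.Agent.P254
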