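import Vale.Agent.P254.HatMoments

namespace Vale.Agent.P254

open MeasureTheory Set Pointwise

variable {n : ℕ}

/-- the value of `det Σ / vol²` for an `n`-simplex -/
noncomputable def aN (n : ℕ) : ℝ :=
  (n.factorial : ℝ) ^ 2 / (((n : ℝ) + 1) ^ (n + 1) * ((n : ℝ) + 2) ^ n)

/-- the ratio `1 - (1 - |p|²)(1 - |q|²)` in terms of barycentric coordinates -/
noncomputable def ratioR {N : ℕ} (ζ : Fin N → ℝ) : ℝ :=
  1 - (1 - (1 + qNeg ζ) / sPos ζ ^ 2) * (1 - qPos ζ / sPos ζ ^ 2)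

lemma linearIndependent_lift1 {u : Fin (n + 1) → (Fin n → ℝ)} (hu : AffineIndependent ℝ u) :
    LinearIndependent ℝ (fun k => lift1 (u k)) := by
  rw [Fintype.linearIndependent_iff]
  rw [affineIndependent_iff_fintype] at hu
  intro c hc
  refine hu c ?_ ?_
  · have := congrFun hc 0
    simpa [lift1_zero] using this
  · ext j
    have := congrFun hc j.succ
    simpa [lift1_succ] using this

lemma img_convexHull {N : ℕ} (B : Matrix (Fin N) (Fin N) ℝ) (X : Set (Fin N → ℝ)) :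
    img B (convexHull ℝ X) = convexHull ℝ ((fun x => B.mulVec x) '' X) :=
  (Matrix.mulVecLin B).image_convexHull X

lemma isConvexBody_insert {u : Fin (n + 1) → (Fin n → ℝ)} (hu : AffineIndependent ℝ u)
    (z : Fin n → ℝ) : IsConvexBody (convexHull ℝ (insert z (range u))) := by
  refine ⟨((finite_range u).insert z).isCompact_convexHull ℝ, convex_convexHull ℝ _, ?_⟩
  have h : IsSimplex (convexHull ℝ (range u)) := ⟨u, hu, rfl⟩
  exact h.isConvexBody.2.2.mono (interior_mono (convexHull_mono (subset_insert _ _)))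

lemma cone0_insert_eq {u : Fin (n + 1) → (Fin n → ℝ)} (hu : AffineIndependent ℝ u)
    (z : Fin n → ℝ) :
    ∃ (B : Matrix (Fin (n + 1)) (Fin (n + 1)) ℝ) (ζ : Fin (n + 1) → ℝ), B.det ≠ 0 ∧
      ∑ k, ζ k = 1 ∧ z = ∑ k, ζ k • u k ∧
      cone0 (convexHull ℝ (insert z (range u))) = img B (hatP ζ) := by
  let B : Matrix (Fin (n + 1)) (Fin (n + 1)) ℝ := Matrix.of fun r k => lift1 (u k) r
  have hBdet : B.det ≠ 0 := by
    have h1 : LinearIndependent ℝ B.col := linearIndependent_lift1 hu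
    rw [Matrix.linearIndependent_cols_iff_isUnit, Matrix.isUnit_iff_isUnit_det] at h1
    exact h1.ne_zero
  have hBunit : IsUnit B.det := isUnit_iff_ne_zero.mpr hBdet
  let ζ : Fin (n + 1) → ℝ := B⁻¹.mulVec (lift1 z)
  have hBζ : B.mulVec ζ = lift1 z := by
    simp only [ζ, Matrix.mulVec_mulVec, Matrix.mul_nonsing_inv B hBunit, Matrix.one_mulVec]
  have hrow : ∀ r, ∑ k, ζ k * lift1 (u k) r = lift1 z r := by
    intro r
    have := congrFun hBζ r
    simp only [Matrix.mulVec, dotProduct, B, Matrix.of_apply] at this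
    rw [← this]
    exact Finset.sum_congr rfl fun k _ => mul_comm _ _
  refine ⟨B, ζ, hBdet, ?_, ?_, ?_⟩
  · have := hrow 0
    simpa [lift1_zero] using this
  · ext j
    have := hrow j.succ
    simp only [lift1_succ] at this
    simp [← this]
  · rw [cone0_convexHull _ (insert_nonempty _ _), hatP, img_convexHull]
    congr 1
    rw [image_insert_eq, image_insert_eq, image_insert_eq, hBζ, Matrix.mulVec_zero,
      ← range_comp, ← range_comp]
    have : ((fun x => B.mulVec x) ∘ fun k : Fin (n + 1) => (Pi.single k 1 : Fin (n + 1) → ℝ))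
        = lift1 ∘ u := by
      ext k r
      simp [B]
    rw [this, insert_comm]

lemma aN_succ_div (n : ℕ) :
    aN (n + 1) = ((n : ℝ) + 1) ^ (n + 3) / (((n : ℝ) + 2) ^ 2 * ((n : ℝ) + 3) ^ (n + 1)) * aN n := by
  unfold aN
  rw [Nat.factorial_succ]
  push_cast
  have h1 : ((n : ℝ) + 1) ≠ 0 := by positivity
  have h2 : ((n : ℝ) + 2) ≠ 0 := by positivity
  have h3 : ((n : ℝ) + 3) ≠ 0 := by positivity
  have e1 : (n : ℝ) + 1 + 1 = n + 2 := by ring
  have e2 : (n : ℝ) + 1 + 2 = n + 3 := by ring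
  rw [e1, e2]
  field_simp
  ring

/-- closed formula -/
lemma isoQ_insert {u : Fin (n + 1) → (Fin n → ℝ)} (hu : AffineIndependent ℝ u) (z : Fin n → ℝ) :
    ∃ ζ : Fin (n + 1) → ℝ, ∑ k, ζ k = 1 ∧ z = ∑ k, ζ k • u k ∧
      isoQ (convexHull ℝ (insert z (range u))) = aN n * ratioR ζ := by
  obtain ⟨B, ζ, hB, hζ, hz, hcone⟩ := cone0_insert_eq hu z
  refine ⟨ζ, hζ, hz, ?_⟩
  have hP := isConvexBody_insert hu z
  have h1 := isoQ_cone0 hP.1 hP.vol_pos.ne'
  have hv : vol (hatP ζ) ≠ 0 := by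
    rw [vol_hatP ζ hζ]
    have := one_le_sPos ζ hζ
    positivity
  rw [hcone, isoQ_img B hB (isCompact_hatP ζ) hv, isoQ_hatP ζ hζ] at h1
  have hκ : (0 : ℝ) < ((n : ℝ) + 1) ^ (n + 3) / (((n : ℝ) + 2) ^ 2 * ((n : ℝ) + 3) ^ (n + 1)) := by
    positivity
  have h2 := aN_succ_div n
  unfold aN at h2
  push_cast at h1 h2
  rw [h2, mul_assoc] at h1
  have := mul_left_cancel₀ hκ.ne' h1
  rw [← this]
  rfl

end Vale.Agent.P254
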