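import Vale.Agent.P254.HatP
import Vale.Agent.P254.DetHat

namespace Vale.Agent.P254

open MeasureTheory Set Pointwise

variable {N : ℕ}

/-- sum of the positive parts -/
noncomputable def sPos (ζ : Fin N → ℝ) : ℝ := ∑ j, max (ζ j) 0

/-- sum of squares of the positive parts -/
noncomputable def qPos (ζ : Fin N → ℝ) : ℝ := ∑ j, (max (ζ j) 0) ^ 2

/-- sum of squares of the negative parts -/
noncomputable def qNeg (ζ : Fin N → ℝ) : ℝ := ∑ j, (min (ζ j) 0) ^ 2

lemma vol_hatP (ζ : Fin N → ℝ) (hζ : ∑ i, ζ i = 1) :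
    vol (hatP ζ) = sPos ζ / (N.factorial : ℝ) := by
  rw [vol_eq_integral, integral_hatP ζ hζ (fun _ => 1) continuous_const]
  simp_rw [← vol_eq_integral, vol_stdS]
  rw [← Finset.sum_mul, sPos]
  ring

lemma sum_max_ite (ζ : Fin N → ℝ) (r : Fin N) (a : ℝ) :
    ∑ j, max (ζ j) 0 * (if r = j then 0 else a) = (sPos ζ - max (ζ r) 0) * a := by
  have : ∀ j, max (ζ j) 0 * (if r = j then 0 else a)
      = max (ζ j) 0 * a - (if r = j then max (ζ j) 0 * a else 0) := by
    intro j; split_ifs <;> ring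
  simp_rw [this]
  rw [Finset.sum_sub_distrib, ← Finset.sum_mul, Finset.sum_ite_eq, sPos]
  simp
  ring

lemma mom1_hatP (ζ : Fin N → ℝ) (hζ : ∑ i, ζ i = 1) (r : Fin N) :
    mom1 (hatP ζ) r = (sPos ζ * (1 + ζ r) - max (ζ r) 0) / ((N + 1).factorial : ℝ) := by
  rw [mom1, integral_hatP ζ hζ (fun x => x r) (continuous_apply r)]
  have hK := isCompact_stdS N
  have h1 : ∀ j, ∫ x in stdS N, (replCol ζ j).mulVec x r
      = (ζ r + (if r = j then 0 else 1)) / ((N + 1).factorial : ℝ) := by
    intro j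
    simp_rw [replCol_mulVec]
    rw [integral_add ((integrableOn_coord hK j).mul_const _)]
    · rw [integral_mul_const]
      change mom1 (stdS N) j * ζ r + _ = _
      rw [mom1_stdS]
      split_ifs with h
      · simp; ring
      · change _ + mom1 (stdS N) r = _
        rw [mom1_stdS]; ring
    · split_ifs
      · exact integrable_zero _ _ _
      · exact integrableOn_coord hK r
  simp_rw [h1, add_div, mul_add]
  rw [Finset.sum_add_distrib, ← Finset.sum_mul]
  have h2 : ∀ j, max (ζ j) 0 * ((if r = j then (0:ℝ) else 1) / ((N + 1).factorial : ℝ))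
      = max (ζ j) 0 * (if r = j then 0 else (1 / ((N + 1).factorial : ℝ))) := by
    intro j; split_ifs <;> simp
  simp_rw [h2]
  rw [sum_max_ite]
  change sPos ζ * _ + _ = _
  ring

lemma integral_stdS_quad (ζ : Fin N → ℝ) (j r c : Fin N) :
    ∫ x in stdS N, (replCol ζ j).mulVec x r * (replCol ζ j).mulVec x c
      = (2 * ζ r * ζ c + ζ r * (if c = j then 0 else 1) + (if r = j then 0 else 1) * ζ c
        + (if r = j then 0 else 1) * (if c = j then 0 else 1) * (if r = c then 2 else 1))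
        / ((N + 2).factorial : ℝ) := by
  have hK := isCompact_stdS N
  have e : ∀ x : Fin N → ℝ, (replCol ζ j).mulVec x r * (replCol ζ j).mulVec x c
      = ζ r * ζ c * (x j * x j) + ζ r * (if c = j then 0 else 1) * (x j * x c)
        + (if r = j then 0 else 1) * ζ c * (x r * x j)
        + (if r = j then 0 else 1) * (if c = j then 0 else 1) * (x r * x c) := by
    intro x
    rw [replCol_mulVec, replCol_mulVec]
    split_ifs <;> ring
  simp_rw [e]
  have i1 := (integrableOn_coord_mul hK j j).const_mul (ζ r * ζ c)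
  have i2 := (integrableOn_coord_mul hK j c).const_mul (ζ r * (if c = j then 0 else 1))
  have i3 := (integrableOn_coord_mul hK r j).const_mul ((if r = j then 0 else 1) * ζ c)
  have i4 := (integrableOn_coord_mul hK r c).const_mul
    ((if r = j then (0:ℝ) else 1) * (if c = j then 0 else 1))
  rw [integral_add, integral_add, integral_add,
    integral_const_mul, integral_const_mul, integral_const_mul, integral_const_mul]
  rotate_left
  · exact i1
  · exact i2
  · exact i1.add i2
  · exact i3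
  · exact (i1.add i2).add i3
  · exact i4
  change _ * mom2 (stdS N) j j + _ * mom2 (stdS N) j c + _ * mom2 (stdS N) r j
      + _ * mom2 (stdS N) r c = _
  simp only [mom2_stdS]
  rcases eq_or_ne r j with rfl | h1
  · rcases eq_or_ne c r with rfl | h2
    · simp; ring
    · simp [h2, h2.symm]; ring
  · rcases eq_or_ne c j with rfl | h2
    · simp [h1]; ring
    · rcases eq_or_ne r c with rfl | h3
      · simp [h1, h1.symm]; ring
      · simp [h1, h2, h3, h2.symm]; ring

lemma mom2_hatP (ζ : Fin N → ℝ) (hζ : ∑ i, ζ i = 1) (r c : Fin N) :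
    mom2 (hatP ζ) r c = (sPos ζ * ((if r = c then 1 else 0) + ζ r * ζ c + (1 + ζ r) * (1 + ζ c))
      - (1 + ζ r) * max (ζ c) 0 - max (ζ r) 0 * (1 + ζ c)) / ((N + 2).factorial : ℝ) := by
  rw [mom2, integral_hatP ζ hζ (fun x => x r * x c)
    ((continuous_apply r).mul (continuous_apply c))]
  simp_rw [integral_stdS_quad]
  have key : ∀ j, max (ζ j) 0 * ((2 * ζ r * ζ c + ζ r * (if c = j then 0 else 1)
        + (if r = j then 0 else 1) * ζ c
        + (if r = j then 0 else 1) * (if c = j then 0 else 1) * (if r = c then 2 else 1))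
        / ((N + 2).factorial : ℝ))
      = (max (ζ j) 0 * (2 * ζ r * ζ c + ζ r + ζ c + (if r = c then 2 else 1))
        - (if c = j then max (ζ j) 0 * (ζ r + (if r = c then 2 else 1)) else 0)
        - (if r = j then max (ζ j) 0 * (ζ c + (if r = c then 2 else 1)) else 0)
        + (if r = j then (if c = j then max (ζ j) 0 * (if r = c then 2 else 1) else 0) else 0))
        / ((N + 2).factorial : ℝ) := by
    intro j
    split_ifs <;> ring
  simp_rw [key]
  rw [← Finset.sum_div, Finset.sum_add_distrib, Finset.sum_sub_distrib, Finset.sum_sub_distrib,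
    ← Finset.sum_mul, Finset.sum_ite_eq, Finset.sum_ite_eq, Finset.sum_ite_eq]
  simp only [Finset.mem_univ, if_true]
  change (sPos ζ * _ - _ - _ + _) / _ = _
  congr 1
  rcases eq_or_ne r c with rfl | h
  · simp; ring
  · simp [h, h.symm]; ring

lemma one_le_sPos (ζ : Fin N → ℝ) (hζ : ∑ i, ζ i = 1) : 1 ≤ sPos ζ := by
  rw [← hζ, sPos]
  exact Finset.sum_le_sum fun j _ => le_max_left _ _

lemma isoQ_hatP (ζ : Fin N → ℝ) (hζ : ∑ i, ζ i = 1) :
    isoQ (hatP ζ) = (N.factorial : ℝ) ^ 2 / (((N : ℝ) + 1) ^ (N + 1) * ((N : ℝ) + 2) ^ N)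
      * (1 - (1 - (1 + qNeg ζ) / sPos ζ ^ 2) * (1 - qPos ζ / sPos ζ ^ 2)) := by
  have hs1 := one_le_sPos ζ hζ
  have hs : sPos ζ ≠ 0 := by linarith
  have hN1 : ((N : ℝ) + 1) ≠ 0 := by positivity
  have hN2 : ((N : ℝ) + 2) ≠ 0 := by positivity
  have hf : (N.factorial : ℝ) ≠ 0 := by positivity
  have hv : vol (hatP ζ) ≠ 0 := by
    rw [vol_hatP ζ hζ]; exact div_ne_zero hs hf
  have hsplit : ∀ r, max (ζ r) 0 + min (ζ r) 0 = ζ r := fun r => by
    rw [max_add_min]; ring
  have hdet := det_hat N (fun r => max (ζ r) 0) (fun r => min (ζ r) 0) (sPos ζ) (qPos ζ) (qNeg ζ)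
    hs rfl (by
      have : ∑ r, (max (ζ r) 0 + min (ζ r) 0) = 1 := by simp_rw [hsplit]; exact hζ
      rw [Finset.sum_add_distrib] at this
      change sPos ζ + _ = 1 at this
      linarith) rfl rfl (by
      refine Finset.sum_eq_zero fun r _ => ?_
      rcases le_total (ζ r) 0 with h | h
      · rw [max_eq_right h]; ring
      · rw [min_eq_right h]; ring)
  have hcov : covMat (hatP ζ) = (1 / (((N : ℝ) + 1) * ((N : ℝ) + 2))) •
      (Matrix.of fun r c : Fin N => (if r = c then (1:ℝ) else 0)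
      + (max (ζ r) 0 + min (ζ r) 0) * (max (ζ c) 0 + min (ζ c) 0)
      + (1 + max (ζ r) 0 + min (ζ r) 0) * (1 + max (ζ c) 0 + min (ζ c) 0)
      - ((1 + max (ζ r) 0 + min (ζ r) 0) * max (ζ c) 0
          + max (ζ r) 0 * (1 + max (ζ c) 0 + min (ζ c) 0)) / sPos ζ
      - (((N:ℝ) + 2) / ((N:ℝ) + 1)) * (1 + max (ζ r) 0 + min (ζ r) 0 - max (ζ r) 0 / sPos ζ)
          * (1 + max (ζ c) 0 + min (ζ c) 0 - max (ζ c) 0 / sPos ζ)) := by
    ext r c
    rw [covMat_apply_eq (isCompact_hatP ζ) hv, mom2_hatP ζ hζ, mom1_hatP ζ hζ, mom1_hatP ζ hζ,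
      vol_hatP ζ hζ]
    simp only [Matrix.smul_apply, Matrix.of_apply, smul_eq_mul]
    have e1 : ∀ r, 1 + max (ζ r) 0 + min (ζ r) 0 = 1 + ζ r := fun r => by rw [add_assoc, hsplit]
    simp_rw [e1, hsplit]
    rw [Nat.factorial_succ (N + 1), Nat.factorial_succ N]
    push_cast
    field_simp
    ring
  unfold isoQ
  rw [hcov, Matrix.det_smul, hdet, vol_hatP ζ hζ]
  simp only [Fintype.card_fin]
  rw [div_pow, one_pow, mul_pow]
  field_simp
  ring

end Vale.Agent.P254
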