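import Vale.Agent.P254.StdSimplex
import Vale.Agent.P254.ConeSimplex
namespace Vale.Agent.P254
open MeasureTheory Set Pointwise
variable {N : ℕ}

def replCol (ζ : Fin N → ℝ) (j : Fin N) : Matrix (Fin N) (Fin N) ℝ :=
  Matrix.of fun r c => if c = j then ζ r else if r = c then 1 else 0

def hatP (ζ : Fin N → ℝ) : Set (Fin N → ℝ) :=
  convexHull ℝ (insert ζ (insert 0 (range fun k : Fin N => (Pi.single k 1 : Fin N → ℝ))))

lemma det_replCol (ζ : Fin N → ℝ) (j : Fin N) : (replCol ζ j).det = ζ j := by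
  have h : replCol ζ j = (1 : Matrix (Fin N) (Fin N) ℝ).updateCol j ζ := by
    ext r c
    simp only [replCol, Matrix.of_apply, Matrix.updateCol_apply, Matrix.one_apply]
  rw [h, ← Matrix.cramer_apply, Matrix.cramer_one]
  rfl

lemma replCol_mulVec (ζ : Fin N → ℝ) (j : Fin N) (x : Fin N → ℝ) (r : Fin N) :
    (replCol ζ j).mulVec x r = x j * ζ r + (if r = j then 0 else x r) := by
  simp only [Matrix.mulVec, dotProduct, replCol, Matrix.of_apply]
  have h : ∀ c, (if c = j then ζ r else if r = c then 1 else 0) * x c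
      = (if c = j then x c * ζ r else 0) + (if r = c then (if c = j then 0 else x c) else 0) := by
    intro c
    by_cases h1 : c = j <;> by_cases h2 : r = c <;> simp [h1, h2, mul_comm]
  simp_rw [h]
  rw [Finset.sum_add_distrib, Finset.sum_ite_eq' Finset.univ j, Finset.sum_ite_eq Finset.univ r]
  simp

lemma isCompact_hatP (ζ : Fin N → ℝ) : IsCompact (hatP ζ) :=
  Set.Finite.isCompact_convexHull (𝕜 := ℝ)
    (Set.Finite.insert _ (Set.Finite.insert _ (Set.finite_range _)))

lemma mem_hatP_iff (ζ x : Fin N → ℝ) :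
    x ∈ hatP ζ ↔ ∃ (τ : ℝ) (μ : Fin N → ℝ), 0 ≤ τ ∧ (∀ i, 0 ≤ μ i) ∧ τ + ∑ i, μ i ≤ 1 ∧
      x = τ • ζ + μ := by
  constructor
  · intro hx
    have hconv : Convex ℝ {x : Fin N → ℝ | ∃ (τ : ℝ) (μ : Fin N → ℝ), 0 ≤ τ ∧ (∀ i, 0 ≤ μ i) ∧
        τ + ∑ i, μ i ≤ 1 ∧ x = τ • ζ + μ} := by
      rintro x ⟨τ, μ, h1, h2, h3, rfl⟩ y ⟨τ', μ', h1', h2', h3', rfl⟩ a b ha hb hab
      refine ⟨a * τ + b * τ', a • μ + b • μ', by positivity, fun i => ?_, ?_, ?_⟩
      · simp only [Pi.add_apply, Pi.smul_apply, smul_eq_mul]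
        exact add_nonneg (mul_nonneg ha (h2 i)) (mul_nonneg hb (h2' i))
      · simp only [Pi.add_apply, Pi.smul_apply, smul_eq_mul]
        rw [Finset.sum_add_distrib, ← Finset.mul_sum, ← Finset.mul_sum]
        nlinarith
      · ext i
        simp only [Pi.add_apply, Pi.smul_apply, smul_eq_mul]
        ring
    refine convexHull_min ?_ hconv hx
    intro z hz
    rcases hz with rfl | rfl | ⟨k, rfl⟩
    · exact ⟨1, 0, zero_le_one, fun i => le_rfl, by simp, by simp⟩
    · exact ⟨0, 0, le_rfl, fun i => le_rfl, by simp, by simp⟩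
    · refine ⟨0, Pi.single k 1, le_rfl, fun i => ?_, by simp, by simp⟩
      by_cases h : i = k
      · subst h; simp
      · simp [h]
  · rintro ⟨τ, μ, h1, h2, h3, rfl⟩
    have hc : Convex ℝ (hatP ζ) := convex_convexHull ℝ _
    let w : Option (Option (Fin N)) → ℝ := fun o =>
      match o with
      | none => τ
      | some none => 1 - τ - ∑ i, μ i
      | some (some k) => μ k
    let z : Option (Option (Fin N)) → (Fin N → ℝ) := fun o =>
      match o with
      | none => ζ
      | some none => 0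
      | some (some k) => Pi.single k 1
    have hmem := hc.sum_mem (t := Finset.univ) (w := w) (z := z) ?_ ?_ ?_
    · have e : ∑ i, w i • z i = τ • ζ + μ := by
        rw [Fintype.sum_option, Fintype.sum_option]
        simp only [w, z, smul_zero, zero_add]
        congr 1
        ext i
        simp [Finset.sum_apply, Pi.single_apply]
      rwa [e] at hmem
    · rintro (_ | _ | k) -
      · exact h1
      · simp only [w]; linarith
      · exact h2 k
    · rw [Fintype.sum_option, Fintype.sum_option]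
      simp only [w]; ring
    · rintro (_ | _ | k) -
      · exact subset_convexHull ℝ _ (mem_insert _ _)
      · exact subset_convexHull ℝ _ (mem_insert_of_mem _ (mem_insert _ _))
      · exact subset_convexHull ℝ _ (mem_insert_of_mem _ (mem_insert_of_mem _ (mem_range_self k)))

lemma hatP_eq (ζ : Fin N → ℝ) (hζ : ∑ i, ζ i = 1) :
    hatP ζ = ⋃ j ∈ {j : Fin N | 0 < ζ j}, img (replCol ζ j) (stdS N) := by
  classical
  apply Subset.antisymm
  · intro x hx
    obtain ⟨τ, μ, h1, h2, h3, rfl⟩ := (mem_hatP_iff ζ x).1 hx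
    set x : Fin N → ℝ := τ • ζ + μ with hxdef
    have hxi : ∀ i, x i = τ * ζ i + μ i := fun i => by simp [hxdef]
    have hne : (Finset.univ.filter fun j : Fin N => 0 < ζ j).Nonempty := by
      by_contra hcon
      rw [Finset.not_nonempty_iff_eq_empty, Finset.filter_eq_empty_iff] at hcon
      have : ∑ i, ζ i ≤ 0 := Finset.sum_nonpos fun i hi => not_lt.1 (hcon hi)
      linarith
    obtain ⟨j, hj, hmin⟩ := Finset.exists_min_image _ (fun j => x j / ζ j) hne
    have hj0 : 0 < ζ j := (Finset.mem_filter.1 hj).2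
    set t := x j / ζ j with ht
    have htj : t * ζ j = x j := by rw [ht]; field_simp
    have htτ : τ ≤ t := by
      rw [ht, le_div_iff₀ hj0, hxi]; linarith [h2 j]
    have hsumx : ∑ i, x i = τ + ∑ i, μ i := by
      simp_rw [hxi]
      rw [Finset.sum_add_distrib, ← Finset.mul_sum, hζ, mul_one]
    simp only [mem_iUnion, mem_setOf_eq, exists_prop]
    refine ⟨j, hj0, fun r => x r - t * ζ r + (if r = j then t else 0), ⟨fun r => ?_, ?_⟩, ?_⟩
    · by_cases hr : r = j
      · subst hr; simp only [if_true]; linarith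
      · simp only [if_neg hr, add_zero]
        by_cases hz : 0 < ζ r
        · have := hmin r (Finset.mem_filter.2 ⟨Finset.mem_univ _, hz⟩)
          rw [le_div_iff₀ hz] at this
          linarith
        · have hz' : ζ r ≤ 0 := not_lt.1 hz
          rw [hxi]
          nlinarith [h2 r]
    · rw [Finset.sum_add_distrib, Finset.sum_sub_distrib, ← Finset.mul_sum, hζ, hsumx]
      simp only [Finset.sum_ite_eq', Finset.mem_univ, if_true]
      linarith
    · ext r
      simp only []
      rw [replCol_mulVec]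
      by_cases hr : r = j
      · subst hr; simp only [if_true]; rw [← htj]; ring
      · simp only [if_neg hr, if_true]; rw [← htj]; ring
  · intro x hx
    simp only [mem_iUnion, mem_setOf_eq, exists_prop] at hx
    obtain ⟨j, hj0, y, ⟨hy0, hy1⟩, rfl⟩ := hx
    rw [mem_hatP_iff]
    refine ⟨y j, fun r => if r = j then 0 else y r, hy0 j, fun r => ?_, ?_, ?_⟩
    · dsimp only; split_ifs
      · exact le_rfl
      · exact hy0 r
    · have : y j + ∑ r, (if r = j then 0 else y r) = ∑ r, y r := by
        have e : ∀ r, y r = (if r = j then y r else 0) + (if r = j then 0 else y r) := by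
          intro r; by_cases h : r = j <;> simp [h]
        conv_rhs => rw [Finset.sum_congr rfl fun r _ => e r]
        rw [Finset.sum_add_distrib, Finset.sum_ite_eq' Finset.univ j]
        simp
      rw [this]; exact hy1
    · ext r
      simp only []
      rw [replCol_mulVec]
      simp

lemma piece_le (ζ : Fin N → ℝ) {j k : Fin N} (hjk : j ≠ k) (hj : 0 < ζ j)
    {x : Fin N → ℝ} (hx : x ∈ img (replCol ζ j) (stdS N)) : ζ k * x j ≤ ζ j * x k := by
  obtain ⟨y, ⟨hy0, -⟩, rfl⟩ := hx
  simp only []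
  rw [replCol_mulVec, replCol_mulVec]
  simp only [if_true, if_neg hjk.symm, add_zero]
  nlinarith [hy0 k, hy0 j, mul_nonneg hj.le (hy0 k)]

lemma pieces_null_inter (ζ : Fin N → ℝ) {j k : Fin N} (hjk : j ≠ k) (hj : 0 < ζ j)
    (hk : 0 < ζ k) :
    volume (img (replCol ζ j) (stdS N) ∩ img (replCol ζ k) (stdS N)) = 0 := by
  let ℓ : (Fin N → ℝ) →ₗ[ℝ] ℝ :=
    ζ k • (LinearMap.proj j : (Fin N → ℝ) →ₗ[ℝ] ℝ) - ζ j • (LinearMap.proj k : (Fin N → ℝ) →ₗ[ℝ] ℝ)
  have hℓ : ∀ x, ℓ x = ζ k * x j - ζ j * x k := fun x => by simp [ℓ]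
  have hne : LinearMap.ker ℓ ≠ ⊤ := by
    intro htop
    have : (Pi.single j 1 : Fin N → ℝ) ∈ LinearMap.ker ℓ := by rw [htop]; trivial
    rw [LinearMap.mem_ker, hℓ] at this
    simp [hjk.symm] at this
    exact hk.ne' this
  have h0 := Measure.addHaar_submodule (volume : Measure (Fin N → ℝ)) (LinearMap.ker ℓ) hne
  refine measure_mono_null ?_ h0
  rintro x ⟨h1, h2⟩
  have a1 := piece_le ζ hjk hj h1
  have a2 := piece_le ζ hjk.symm hk h2
  simp only [SetLike.mem_coe, LinearMap.mem_ker, hℓ]
  linarith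

lemma integral_hatP (ζ : Fin N → ℝ) (hζ : ∑ i, ζ i = 1) (f : (Fin N → ℝ) → ℝ)
    (hf : Continuous f) :
    ∫ x in hatP ζ, f x = ∑ j, max (ζ j) 0 * ∫ x in stdS N, f ((replCol ζ j).mulVec x) := by
  classical
  set s : Fin N → Set (Fin N → ℝ) := fun j =>
    if 0 < ζ j then img (replCol ζ j) (stdS N) else ∅ with hs
  have hU : hatP ζ = ⋃ j, s j := by
    rw [hatP_eq ζ hζ]
    ext x
    simp only [mem_iUnion, mem_setOf_eq, exists_prop, hs]
    constructor
    · rintro ⟨j, hj, hx⟩
      exact ⟨j, by rw [if_pos hj]; exact hx⟩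
    · rintro ⟨j, hx⟩
      by_cases hj : 0 < ζ j
      · rw [if_pos hj] at hx; exact ⟨j, hj, hx⟩
      · rw [if_neg hj] at hx; exact absurd hx (notMem_empty _)
  have hm : ∀ j, NullMeasurableSet (s j) volume := by
    intro j
    simp only [hs]
    split_ifs
    · exact (isCompact_img _ (isCompact_stdS N)).measurableSet.nullMeasurableSet
    · exact MeasurableSet.empty.nullMeasurableSet
  have hd : Pairwise (Function.onFun (AEDisjoint (volume : Measure (Fin N → ℝ))) s) := by
    intro j k hjk
    simp only [Function.onFun, AEDisjoint, hs]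
    by_cases hj : 0 < ζ j
    · by_cases hk : 0 < ζ k
      · rw [if_pos hj, if_pos hk]; exact pieces_null_inter ζ hjk hj hk
      · rw [if_neg hk]; simp
    · rw [if_neg hj]; simp
  have hfi : IntegrableOn f (⋃ j, s j) volume := by
    rw [← hU]
    exact hf.continuousOn.integrableOn_compact (isCompact_hatP ζ)
  rw [hU, integral_iUnion_ae hm hd hfi, tsum_fintype]
  refine Finset.sum_congr rfl fun j _ => ?_
  simp only [hs]
  by_cases hj : 0 < ζ j
  · rw [if_pos hj, integral_img _ (by rw [det_replCol]; exact hj.ne'), det_replCol,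
      abs_of_pos hj, max_eq_left hj.le]
  · rw [if_neg hj, max_eq_right (not_lt.1 hj)]
    simp

end Vale.Agent.P254
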