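import Vale.Agent.P254.Select

namespace Vale.Agent.P254

open Set

lemma isoConst_pow {n : ℕ} (hn : 1 ≤ n) {K : Set (Fin n → ℝ)} (hK : IsCompact K) :
    isoConst K ^ (2 * n) = isoQ K := by
  have hn' : (0 : ℝ) < n := by exact_mod_cast hn
  rw [isoConst_eq, ← Real.rpow_natCast, ← Real.rpow_mul (isoQ_nonneg hK)]
  have : 1 / (2 * (n : ℝ)) * ((2 * n : ℕ) : ℝ) = 1 := by
    push_cast; field_simp
  rw [this, Real.rpow_one]

lemma isoConst_le_iff {n : ℕ} (hn : 1 ≤ n) {K S : Set (Fin n → ℝ)} (hK : IsCompact K)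
    (hS : IsCompact S) : isoConst K ≤ isoConst S ↔ isoQ K ≤ isoQ S := by
  have hn' : (0 : ℝ) < n := by exact_mod_cast hn
  rw [isoConst_eq, isoConst_eq]
  exact Real.rpow_le_rpow_iff (isoQ_nonneg hK) (isoQ_nonneg hS) (by positivity)

lemma isoConst_eq_iff {n : ℕ} (hn : 1 ≤ n) {K S : Set (Fin n → ℝ)} (hK : IsCompact K)
    (hS : IsCompact S) : isoConst K = isoConst S ↔ isoQ K = isoQ S := by
  rw [le_antisymm_iff, le_antisymm_iff, isoConst_le_iff hn hK hS, isoConst_le_iff hn hS hK]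

/-- the conjecture for the hull of a simplex and one more point -/
lemma strong_insert {n : ℕ} (hn : 1 ≤ n) {u : Fin (n + 1) → (Fin n → ℝ)}
    (hu : AffineIndependent ℝ u) (z : Fin n → ℝ) {S : Set (Fin n → ℝ)} (hS : IsSimplex S) :
    isoConst (convexHull ℝ (insert z (range u))) ≤ isoConst S ∧
      (isoConst (convexHull ℝ (insert z (range u))) = isoConst S →
        IsSimplex (convexHull ℝ (insert z (range u)))) := by
  have hP := isConvexBody_insert hu z
  have hSb := hS.isConvexBody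
  obtain ⟨ζ, hζ, hz, hQ⟩ := isoQ_insert hu z
  rw [isoConst_le_iff hn hP.1 hSb.1, isoConst_eq_iff hn hP.1 hSb.1, isoQ_simplex hS, hQ]
  refine ⟨?_, fun h => ?_⟩
  · have := ratioR_le_one ζ hζ
    nlinarith [aN_pos n]
  · have hR : ratioR ζ = 1 := by
      have := aN_pos n
      have h' : aN n * ratioR ζ = aN n * 1 := by rw [h, mul_one]
      exact mul_left_cancel₀ this.ne' h'
    rw [hz]
    rcases ratioR_eq_one ζ hζ hR with h0 | ⟨k₀, hk₀, hneg⟩
    · exact isSimplex_insert_of_nonneg hu hζ h0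
    · exact isSimplex_insert_of_one_pos hu hζ hk₀ hneg

/-- closed formula with prescribed barycentric coordinates -/
lemma isoQ_insert_bary {n : ℕ} {u : Fin (n + 1) → (Fin n → ℝ)} (hu : AffineIndependent ℝ u)
    (ζ : Fin (n + 1) → ℝ) (hζ : ∑ k, ζ k = 1) :
    isoQ (convexHull ℝ (insert (∑ k, ζ k • u k) (range u))) = aN n * ratioR ζ := by
  obtain ⟨ζ', hζ', hz, hQ⟩ := isoQ_insert hu (∑ k, ζ k • u k)
  have : ζ' = ζ := by
    have hu' := affineIndependent_iff_fintype.mp hu
    have := hu' (fun k => ζ' k - ζ k) (by rw [Finset.sum_sub_distrib, hζ, hζ', sub_self]) (by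
      simp_rw [sub_smul]
      rw [Finset.sum_sub_distrib, ← hz, sub_self])
    ext k
    linarith [this k]
  rw [hQ, this]

end Vale.Agent.P254
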