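import Vale.Agent.P254.Basic

namespace Vale.Agent.P254

open MeasureTheory Set

variable {n : ℕ}

/-- image of a set under the linear map given by a matrix -/
def img (A : Matrix (Fin n) (Fin n) ℝ) (K : Set (Fin n → ℝ)) : Set (Fin n → ℝ) :=
  (fun x => A.mulVec x) '' K

lemma integral_img (A : Matrix (Fin n) (Fin n) ℝ) (hA : A.det ≠ 0) (K : Set (Fin n → ℝ))
    (f : (Fin n → ℝ) → ℝ) :
    ∫ y in img A K, f y = |A.det| * ∫ x in K, f (A.mulVec x) := by
  set L : (Fin n → ℝ) →ₗ[ℝ] (Fin n → ℝ) := Matrix.toLin' A with hL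
  have hdet : LinearMap.det L = A.det := by rw [hL, LinearMap.det_toLin']
  have hdet' : LinearMap.det L ≠ 0 := by rw [hdet]; exact hA
  have hLx : ∀ x, L x = A.mulVec x := fun x => by rw [hL, Matrix.toLin'_apply]
  let e : (Fin n → ℝ) ≃L[ℝ] (Fin n → ℝ) := (LinearMap.equivOfDetNeZero L hdet').toContinuousLinearEquiv
  have he : ∀ x, e x = L x := fun x => rfl
  have hemb : MeasurableEmbedding (L : (Fin n → ℝ) → (Fin n → ℝ)) := by
    have : (L : (Fin n → ℝ) → (Fin n → ℝ)) = e := by ext1 x; exact (he x).symm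
    rw [this]
    exact e.toHomeomorph.measurableEmbedding
  have hinj : Function.Injective (L : (Fin n → ℝ) → (Fin n → ℝ)) := hemb.injective
  have himg : img A K = L '' K := by
    unfold img; congr 1
  have h1 := hemb.setIntegral_map (μ := (volume : Measure (Fin n → ℝ))) f (L '' K)
  rw [Measure.map_linearMap_addHaar_eq_smul_addHaar _ hdet', preimage_image_eq _ hinj,
    Measure.restrict_smul, integral_smul_measure] at h1
  rw [himg]
  simp_rw [← hLx]
  rw [← h1, hdet, ENNReal.toReal_ofReal (abs_nonneg _), abs_inv, smul_eq_mul, ← mul_assoc,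
    mul_inv_cancel₀ (abs_ne_zero.mpr hA), one_mul]

lemma isCompact_img (A : Matrix (Fin n) (Fin n) ℝ) {K : Set (Fin n → ℝ)} (hK : IsCompact K) :
    IsCompact (img A K) := by
  refine hK.image ?_
  exact (Matrix.toLin' A).continuous_of_finiteDimensional

lemma vol_img (A : Matrix (Fin n) (Fin n) ℝ) (hA : A.det ≠ 0) (K : Set (Fin n → ℝ)) :
    vol (img A K) = |A.det| * vol K := by
  rw [vol_eq_integral, vol_eq_integral, integral_img A hA]

lemma mom1_img (A : Matrix (Fin n) (Fin n) ℝ) (hA : A.det ≠ 0) {K : Set (Fin n → ℝ)}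
    (hK : IsCompact K) (i : Fin n) :
    mom1 (img A K) i = |A.det| * ∑ k, A i k * mom1 K k := by
  unfold mom1
  rw [integral_img A hA]
  congr 1
  simp only [Matrix.mulVec, dotProduct]
  rw [integral_finsetSum _ (fun k _ => (integrableOn_coord hK k).const_mul _)]
  simp_rw [integral_const_mul]

lemma mom2_img (A : Matrix (Fin n) (Fin n) ℝ) (hA : A.det ≠ 0) {K : Set (Fin n → ℝ)}
    (hK : IsCompact K) (i j : Fin n) :
    mom2 (img A K) i j = |A.det| * ∑ k, ∑ l, A i k * A j l * mom2 K k l := by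
  unfold mom2
  rw [integral_img A hA]
  congr 1
  simp only [Matrix.mulVec, dotProduct]
  have e : ∀ x : Fin n → ℝ, (∑ k, A i k * x k) * (∑ l, A j l * x l)
      = ∑ k, ∑ l, A i k * A j l * (x k * x l) := by
    intro x
    rw [Finset.sum_mul_sum]
    refine Finset.sum_congr rfl fun k _ => Finset.sum_congr rfl fun l _ => ?_
    ring
  simp_rw [e]
  rw [integral_finsetSum _ (fun k _ => integrable_finsetSum _
    (fun l _ => (integrableOn_coord_mul hK k l).const_mul _))]
  simp_rw [integral_finsetSum _ (fun l _ => (integrableOn_coord_mul hK _ l).const_mul _),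
    integral_const_mul]

lemma covMat_img (A : Matrix (Fin n) (Fin n) ℝ) (hA : A.det ≠ 0) {K : Set (Fin n → ℝ)}
    (hK : IsCompact K) (hv : vol K ≠ 0) :
    covMat (img A K) = A * covMat K * A.transpose := by
  have hv' : vol (img A K) ≠ 0 := by
    rw [vol_img A hA]; exact mul_ne_zero (abs_ne_zero.mpr hA) hv
  have hd : |A.det| ≠ 0 := abs_ne_zero.mpr hA
  ext i j
  rw [covMat_apply_eq (isCompact_img A hK) hv', mom2_img A hA hK, mom1_img A hA hK,
    mom1_img A hA hK, vol_img A hA]
  simp only [Matrix.mul_apply, Matrix.transpose_apply]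
  simp_rw [covMat_apply_eq hK hv]
  rw [mul_div_mul_left _ _ hd, mul_div_mul_left _ _ hd, mul_div_mul_left _ _ hd]
  simp_rw [Finset.sum_mul, Finset.sum_div]
  rw [Finset.sum_comm]
  have : (∑ k, A i k * mom1 K k / vol K) * (∑ l, A j l * mom1 K l / vol K)
      = ∑ l, ∑ k, A i k * A j l * ((mom1 K k / vol K) * (mom1 K l / vol K)) := by
    rw [Finset.sum_mul_sum, Finset.sum_comm]
    refine Finset.sum_congr rfl fun k _ => Finset.sum_congr rfl fun l _ => ?_
    ring
  rw [this, ← Finset.sum_sub_distrib]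
  refine Finset.sum_congr rfl fun l _ => ?_
  rw [← Finset.sum_sub_distrib]
  refine Finset.sum_congr rfl fun k _ => ?_
  ring

lemma isoQ_img (A : Matrix (Fin n) (Fin n) ℝ) (hA : A.det ≠ 0) {K : Set (Fin n → ℝ)}
    (hK : IsCompact K) (hv : vol K ≠ 0) :
    isoQ (img A K) = isoQ K := by
  unfold isoQ
  rw [covMat_img A hA hK hv, vol_img A hA, Matrix.det_mul, Matrix.det_mul, Matrix.det_transpose,
    mul_pow, sq_abs]
  field_simp

end Vale.Agent.P254
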