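import Vale.Agent.P254.Linear

namespace Vale.Agent.P254

open MeasureTheory Set Pointwise

variable {n : ℕ}

/-- the set `{(t, y) : t ∈ [0,1], y ∈ ρ(t) • K}` in `ℝ × ℝⁿ` -/
def profileProd (ρ : ℝ → ℝ) (K : Set (Fin n → ℝ)) : Set (ℝ × (Fin n → ℝ)) :=
  (fun q : ℝ × (Fin n → ℝ) => (q.1, ρ q.1 • q.2)) '' (Icc (0 : ℝ) 1 ×ˢ K)

/-- the set `{(t, y) : t ∈ [0,1], y ∈ ρ(t) • K}` in `ℝ^{n+1}` -/
def profileSet (ρ : ℝ → ℝ) (K : Set (Fin n → ℝ)) : Set (Fin (n + 1) → ℝ) :=
  (fun q : ℝ × (Fin n → ℝ) => (Fin.cons q.1 (ρ q.1 • q.2) : Fin (n + 1) → ℝ)) ''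
    (Icc (0 : ℝ) 1 ×ˢ K)

lemma isCompact_profileProd {ρ : ℝ → ℝ} (hρ : Continuous ρ) {K : Set (Fin n → ℝ)}
    (hK : IsCompact K) : IsCompact (profileProd ρ K) := by
  refine (isCompact_Icc.prod hK).image ?_
  fun_prop

lemma isCompact_profileSet {ρ : ℝ → ℝ} (hρ : Continuous ρ) {K : Set (Fin n → ℝ)}
    (hK : IsCompact K) : IsCompact (profileSet ρ K) := by
  refine (isCompact_Icc.prod hK).image ?_
  refine continuous_pi fun i => ?_
  refine Fin.cases ?_ (fun j => ?_) i
  · simpa using continuous_fst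
  · simp only [Fin.cons_succ, Pi.smul_apply, smul_eq_mul]
    exact (hρ.comp continuous_fst).mul ((continuous_apply j).comp continuous_snd)

lemma mem_profileProd {ρ : ℝ → ℝ} {K : Set (Fin n → ℝ)} {t : ℝ} {y : Fin n → ℝ} :
    (t, y) ∈ profileProd ρ K ↔ t ∈ Icc (0 : ℝ) 1 ∧ y ∈ ρ t • K := by
  constructor
  · rintro ⟨⟨t', x⟩, ⟨ht, hx⟩, heq⟩
    simp only [Prod.mk.injEq] at heq
    obtain ⟨rfl, rfl⟩ := heq
    exact ⟨ht, smul_mem_smul_set hx⟩
  · rintro ⟨ht, x, hx, rfl⟩
    exact ⟨(t, x), ⟨ht, hx⟩, rfl⟩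

lemma integral_profile {K : Set (Fin n → ℝ)} (hK : IsCompact K) {ρ : ℝ → ℝ} (hρ : Continuous ρ)
    (hpos : ∀ t ∈ Ioo (0 : ℝ) 1, 0 < ρ t) (g : ℝ → ℝ) (hg : Continuous g)
    (h : (Fin n → ℝ) → ℝ) (hh : Continuous h) (d : ℕ)
    (hom : ∀ (r : ℝ) (x : Fin n → ℝ), h (r • x) = r ^ d * h x) :
    ∫ p in profileSet ρ K, g (p 0) * h (Fin.tail p)
      = (∫ t in Ioo (0 : ℝ) 1, g t * ρ t ^ (n + d)) * ∫ x in K, h x := by
  obtain ⟨e, he⟩ : ∃ e, e = MeasurableEquiv.piFinSuccAbove (fun _ : Fin (n + 1) => ℝ) 0 := ⟨_, rfl⟩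
  have mp : MeasurePreserving e.symm volume volume := by
    rw [he]; exact (volume_preserving_piFinSuccAbove (fun _ : Fin (n + 1) => ℝ) 0).symm
  have hes : ∀ q : ℝ × (Fin n → ℝ), e.symm q = (Fin.cons q.1 q.2 : Fin (n + 1) → ℝ) := by
    intro q
    simp [he, MeasurableEquiv.piFinSuccAbove, Fin.insertNthEquiv, Fin.insertNth_zero']
  have h1 := mp.setIntegral_preimage_emb e.symm.measurableEmbedding
    (fun p : Fin (n + 1) → ℝ => g (p 0) * h (Fin.tail p)) (profileSet ρ K)
  have hpre : e.symm ⁻¹' (profileSet ρ K) = profileProd ρ K := by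
    ext ⟨t, y⟩
    simp only [mem_preimage, hes, profileSet, profileProd, mem_image, mem_prod, Prod.exists,
      Prod.mk.injEq]
    constructor
    · rintro ⟨a, b, hab, heq⟩
      have h0 := congrFun heq 0
      simp only [Fin.cons_zero] at h0
      have h2 : ρ a • b = y := by
        ext j
        have := congrFun heq j.succ
        simpa using this
      exact ⟨a, b, hab, h0, h2⟩
    · rintro ⟨a, b, hab, rfl, rfl⟩
      exact ⟨a, b, hab, rfl⟩
  rw [← h1, hpre]
  simp only [hes, Fin.cons_zero, Fin.tail_cons]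
  have hcomp := isCompact_profileProd hρ hK
  have hmeas : MeasurableSet (profileProd ρ K) := hcomp.isClosed.measurableSet
  have hcont : Continuous (fun q : ℝ × (Fin n → ℝ) => g q.1 * h q.2) := by fun_prop
  have hint : IntegrableOn (fun q : ℝ × (Fin n → ℝ) => g q.1 * h q.2) (profileProd ρ K)
      (volume : Measure (ℝ × (Fin n → ℝ))) := hcont.continuousOn.integrableOn_compact hcomp
  rw [← integral_indicator hmeas, Measure.volume_eq_prod, integral_prod]
  swap
  · rw [← Measure.volume_eq_prod, integrable_indicator_iff hmeas]; exact hint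
  have hinner : ∀ t : ℝ, ∫ y, (profileProd ρ K).indicator
      (fun q : ℝ × (Fin n → ℝ) => g q.1 * h q.2) (t, y)
      = (Icc (0 : ℝ) 1).indicator (fun t => g t * ∫ y in ρ t • K, h y) t := by
    intro t
    by_cases ht : t ∈ Icc (0 : ℝ) 1
    · rw [indicator_of_mem ht]
      have : ∀ y, (profileProd ρ K).indicator
          (fun q : ℝ × (Fin n → ℝ) => g q.1 * h q.2) (t, y)
          = (ρ t • K).indicator (fun y => g t * h y) y := by
        intro y
        by_cases hy : y ∈ ρ t • K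
        · rw [indicator_of_mem hy, indicator_of_mem (mem_profileProd.mpr ⟨ht, hy⟩)]
        · rw [indicator_of_notMem hy, indicator_of_notMem]
          intro hc; exact hy (mem_profileProd.mp hc).2
      simp_rw [this]
      have hm : MeasurableSet (ρ t • K) := (hK.smul (ρ t)).isClosed.measurableSet
      rw [integral_indicator hm, integral_const_mul]
    · rw [indicator_of_notMem ht]
      have : ∀ y, (profileProd ρ K).indicator
          (fun q : ℝ × (Fin n → ℝ) => g q.1 * h q.2) (t, y) = 0 := by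
        intro y
        rw [indicator_of_notMem]
        intro hc; exact ht (mem_profileProd.mp hc).1
      simp_rw [this]
      simp
  simp_rw [hinner]
  rw [integral_indicator measurableSet_Icc, integral_Icc_eq_integral_Ioo, ← integral_mul_const]
  refine setIntegral_congr_fun measurableSet_Ioo fun t ht => ?_
  have hp := hpos t ht
  have h3 := Measure.setIntegral_comp_smul_of_pos (volume : Measure (Fin n → ℝ)) h K hp
  simp only [Module.finrank_fin_fun, smul_eq_mul] at h3
  simp_rw [hom] at h3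
  rw [integral_const_mul] at h3
  have hne : ρ t ^ n ≠ 0 := pow_ne_zero _ hp.ne'
  have h4 : ∫ y in ρ t • K, h y = ρ t ^ n * (ρ t ^ d * ∫ x in K, h x) := by
    rw [h3]; field_simp
  rw [h4, pow_add]
  ring

end Vale.Agent.P254
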