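import Vale.Agent.P254.Glue

namespace Vale.Agent.P254

open MeasureTheory Set Pointwise

variable {N : ℕ}

lemma sum_mul_sub_self {ι : Type*} [Fintype ι] (a : ι → ℝ) :
    ∑ k, a k * ((∑ l, a l) - a k) = (∑ l, a l) ^ 2 - ∑ k, a k ^ 2 := by
  simp_rw [mul_sub]
  rw [Finset.sum_sub_distrib, ← Finset.sum_mul, sq]
  congr 1
  exact Finset.sum_congr rfl fun k _ => (sq (a k)).symm

lemma sum_sq_le_sq_sum {ι : Type*} [Fintype ι] (a : ι → ℝ) (h : ∀ k, 0 ≤ a k) :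
    ∑ k, a k ^ 2 ≤ (∑ l, a l) ^ 2 := by
  have h1 := sum_mul_sub_self a
  have h2 : 0 ≤ ∑ k, a k * ((∑ l, a l) - a k) :=
    Finset.sum_nonneg fun k _ => mul_nonneg (h k)
      (sub_nonneg.mpr (Finset.single_le_sum (fun l _ => h l) (Finset.mem_univ k)))
  linarith

/-- sum of absolute values of negative parts -/
lemma sPos_eq (ζ : Fin N → ℝ) (hζ : ∑ i, ζ i = 1) : sPos ζ = 1 + ∑ k, -min (ζ k) 0 := by
  have : ∑ r, (max (ζ r) 0 + min (ζ r) 0) = 1 := by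
    simp_rw [max_add_min, add_zero]; exact hζ
  rw [Finset.sum_add_distrib] at this
  rw [Finset.sum_neg_distrib]
  change sPos ζ + _ = 1 at this
  linarith

lemma qNeg_le (ζ : Fin N → ℝ) (hζ : ∑ i, ζ i = 1) :
    1 + qNeg ζ + 2 * ∑ k, -min (ζ k) 0 ≤ sPos ζ ^ 2 := by
  have h1 := sum_sq_le_sq_sum (fun k => -min (ζ k) 0) (fun k => by simp)
  have h2 : ∑ k, (-min (ζ k) 0) ^ 2 = qNeg ζ := by
    simp [qNeg]
  rw [sPos_eq ζ hζ]
  nlinarith

lemma qPos_le (ζ : Fin N → ℝ) : qPos ζ ≤ sPos ζ ^ 2 :=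
  sum_sq_le_sq_sum (fun k => max (ζ k) 0) (fun k => le_max_right _ _)

lemma ratioR_le_one (ζ : Fin N → ℝ) (hζ : ∑ i, ζ i = 1) : ratioR ζ ≤ 1 := by
  have hs := one_le_sPos ζ hζ
  have hs2 : 0 < sPos ζ ^ 2 := by positivity
  have hσ : 0 ≤ ∑ k, -min (ζ k) 0 := Finset.sum_nonneg fun k _ => by simp
  have hA : (1 + qNeg ζ) / sPos ζ ^ 2 ≤ 1 := by
    rw [div_le_one hs2]; have := qNeg_le ζ hζ; linarith
  have hB : qPos ζ / sPos ζ ^ 2 ≤ 1 := by
    rw [div_le_one hs2]; exact qPos_le ζ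
  unfold ratioR
  nlinarith [mul_nonneg (sub_nonneg.mpr hA) (sub_nonneg.mpr hB)]

lemma ratioR_eq_one (ζ : Fin N → ℝ) (hζ : ∑ i, ζ i = 1) (h : ratioR ζ = 1) :
    (∀ k, 0 ≤ ζ k) ∨ (∃ k₀, 0 < ζ k₀ ∧ ∀ k, k ≠ k₀ → ζ k ≤ 0) := by
  have hs := one_le_sPos ζ hζ
  have hs2 : 0 < sPos ζ ^ 2 := by positivity
  have hσ : 0 ≤ ∑ k, -min (ζ k) 0 := Finset.sum_nonneg fun k _ => by simp
  have hprod : (1 - (1 + qNeg ζ) / sPos ζ ^ 2) * (1 - qPos ζ / sPos ζ ^ 2) = 0 := by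
    unfold ratioR at h; linarith
  rcases mul_eq_zero.mp hprod with hA | hB
  · left
    have hA' : 1 + qNeg ζ = sPos ζ ^ 2 := by
      have : (1 + qNeg ζ) / sPos ζ ^ 2 = 1 := by linarith
      rwa [div_eq_one_iff_eq hs2.ne'] at this
    have h0 : ∑ k, -min (ζ k) 0 = 0 := by
      have := qNeg_le ζ hζ; linarith
    intro k
    have := (Finset.sum_eq_zero_iff_of_nonneg (fun k _ => by simp)).mp h0 k (Finset.mem_univ k)
    have h1 : min (ζ k) 0 = 0 := by linarith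
    exact min_eq_right_iff.mp h1
  · right
    have hB' : qPos ζ = sPos ζ ^ 2 := by
      have : qPos ζ / sPos ζ ^ 2 = 1 := by linarith
      rwa [div_eq_one_iff_eq hs2.ne'] at this
    have hp0 : ∀ k, 0 ≤ max (ζ k) 0 := fun k => le_max_right _ _
    have hle : ∀ k, max (ζ k) 0 ≤ sPos ζ := fun k =>
      Finset.single_le_sum (f := fun k => max (ζ k) 0) (fun l _ => hp0 l) (Finset.mem_univ k)
    have hsum := sum_mul_sub_self (fun k => max (ζ k) 0)
    have hz : ∑ k, max (ζ k) 0 * (sPos ζ - max (ζ k) 0) = 0 := by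
      have e : (∑ l, max (ζ l) 0) ^ 2 - ∑ k, max (ζ k) 0 ^ 2 = 0 := by
        change sPos ζ ^ 2 - qPos ζ = 0; linarith
      exact hsum.trans e
    have hterm : ∀ k, max (ζ k) 0 * (sPos ζ - max (ζ k) 0) = 0 := fun k =>
      (Finset.sum_eq_zero_iff_of_nonneg (fun k _ => mul_nonneg (hp0 k)
        (sub_nonneg.mpr (hle k)))).mp hz k (Finset.mem_univ k)
    have hex : ∃ k₀, 0 < max (ζ k₀) 0 := by
      by_contra hcon
      push Not at hcon
      have : sPos ζ ≤ 0 := Finset.sum_nonpos fun k _ => hcon k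
      linarith
    obtain ⟨k₀, hk₀⟩ := hex
    have hk₀s : max (ζ k₀) 0 = sPos ζ := by
      rcases mul_eq_zero.mp (hterm k₀) with h1 | h1
      · linarith
      · linarith
    refine ⟨k₀, ?_, ?_⟩
    · by_contra hcon
      rw [max_eq_right (not_lt.mp hcon)] at hk₀
      exact lt_irrefl _ hk₀
    · intro k hk
      have h2 : max (ζ k) 0 + max (ζ k₀) 0 ≤ sPos ζ :=
        Finset.add_le_sum (f := fun k => max (ζ k) 0) (fun l _ => hp0 l) (Finset.mem_univ k)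
          (Finset.mem_univ k₀) hk
      have h3 : max (ζ k) 0 ≤ 0 := by linarith
      exact le_trans (le_max_left _ _) h3

end Vale.Agent.P254
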