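import Vale.Agent.P254.Final

namespace Vale.Agent.P254

open MeasureTheory Set Pointwise

variable {n : ℕ}

/-- A full-dimensional convex hull of `n + 2` points is the hull of a simplex and one point. -/
lemma exists_simplex_insert (v : Fin (n + 2) → (Fin n → ℝ))
    (hint : (interior (convexHull ℝ (range v))).Nonempty) :
    ∃ (u : Fin (n + 1) → (Fin n → ℝ)) (z : Fin n → ℝ), AffineIndependent ℝ u ∧
      range v = insert z (range u) := by
  classical
  have hspan : affineSpan ℝ (range v) = ⊤ :=
    interior_convexHull_nonempty_iff_affineSpan_eq_top.mp hint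
  obtain ⟨t, htv, hts, hti⟩ := exists_affineIndependent ℝ (Fin n → ℝ) (range v)
  have htfin : t.Finite := (finite_range v).subset htv
  have : Fintype t := htfin.fintype
  have hcard : Fintype.card t = n + 1 := by
    have h1 : affineSpan ℝ (range ((↑) : t → (Fin n → ℝ))) = ⊤ := by
      rw [Subtype.range_coe, hts, hspan]
    have := (hti.affineSpan_eq_top_iff_card_eq_finrank_add_one).mp h1
    simpa using this
  let e : Fin (n + 1) ≃ t := (Fintype.equivFinOfCardEq hcard).symm
  let u : Fin (n + 1) → (Fin n → ℝ) := fun k => (e k : Fin n → ℝ)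
  have hu : AffineIndependent ℝ u := hti.comp_embedding e.toEmbedding
  have hru : range u = t := by
    have : u = ((↑) : t → (Fin n → ℝ)) ∘ e := rfl
    rw [this, e.surjective.range_comp, Subtype.range_coe]
  have hncard_t : t.ncard = n + 1 := by
    rw [← hcard, ← Nat.card_eq_fintype_card, Nat.card_coe_set_eq]
  have hncard_v : (range v).ncard ≤ n + 2 := by
    have := Set.ncard_image_le (f := v) (s := univ) finite_univ
    rw [image_univ] at this
    simpa using this
  have hdiff : (range v \ t).ncard ≤ 1 := by
    have := Set.ncard_sdiff_add_ncard_of_subset htv (finite_range v)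
    omega
  rcases (Set.ncard_le_one_iff_eq ((finite_range v).subset sdiff_subset)).mp hdiff with h | ⟨a, ha⟩
  · refine ⟨u, u 0, hu, ?_⟩
    rw [insert_eq_of_mem (mem_range_self 0), hru]
    exact Subset.antisymm (sdiff_eq_empty.mp h) htv
  · refine ⟨u, a, hu, ?_⟩
    rw [hru]
    ext x
    constructor
    · intro hx
      by_cases hxt : x ∈ t
      · exact Or.inr hxt
      · left
        have : x ∈ range v \ t := ⟨hx, hxt⟩
        rw [ha] at this
        exact this
    · rintro (rfl | hx)
      · have : x ∈ range v \ t := by rw [ha]; rfl
        exact this.1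
      · exact htv hx

end Vale.Agent.P254
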