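import Vale.Agent.P254.Cone

namespace Vale.Agent.P254

open MeasureTheory Set Pointwise

def stdS (N : ℕ) : Set (Fin N → ℝ) := {x | (∀ i, 0 ≤ x i) ∧ ∑ i, x i ≤ 1}

lemma mem_stdS {N : ℕ} {x : Fin N → ℝ} : x ∈ stdS N ↔ (∀ i, 0 ≤ x i) ∧ ∑ i, x i ≤ 1 := Iff.rfl

lemma stdS_zero : stdS 0 = univ := by
  ext x
  simp [mem_stdS]

lemma stdS_succ (N : ℕ) : stdS (N + 1) = profileSet (fun t => 1 - t) (stdS N) := by
  ext x
  constructor
  · intro hx
    obtain ⟨h0, h1⟩ := mem_stdS.mp hx
    rw [Fin.sum_univ_succ] at h1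
    have hs0 : 0 ≤ ∑ i : Fin N, x i.succ := Finset.sum_nonneg fun i _ => h0 _
    have hx0 : x 0 ≤ 1 := by linarith
    rcases eq_or_lt_of_le hx0 with h | h
    · refine ⟨(x 0, 0), ⟨⟨h0 0, hx0⟩, ?_⟩, ?_⟩
      · exact mem_stdS.mpr ⟨fun i => le_rfl, by simp⟩
      · have hz : ∑ i : Fin N, x i.succ = 0 := by linarith
        have hz' := (Finset.sum_eq_zero_iff_of_nonneg (fun i _ => h0 (Fin.succ i))).mp hz
        ext i
        refine Fin.cases ?_ (fun j => ?_) i
        · simp
        · simp [hz' j (Finset.mem_univ j)]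
    · have hpos : 0 < 1 - x 0 := by linarith
      refine ⟨(x 0, (1 - x 0)⁻¹ • Fin.tail x), ⟨⟨h0 0, hx0⟩, ?_⟩, ?_⟩
      · refine mem_stdS.mpr ⟨fun i => ?_, ?_⟩
        · simp only [Pi.smul_apply, smul_eq_mul, Fin.tail]
          exact mul_nonneg (inv_nonneg.mpr hpos.le) (h0 _)
        · simp only [Pi.smul_apply, smul_eq_mul, Fin.tail]
          rw [← Finset.mul_sum, inv_mul_le_iff₀ hpos]
          linarith
      · ext i
        refine Fin.cases ?_ (fun j => ?_) i
        · simp
        · simp only [Fin.cons_succ, Pi.smul_apply, smul_eq_mul, Fin.tail]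
          field_simp
  · rintro ⟨⟨t, y⟩, ⟨⟨ht0, ht1⟩, hy⟩, rfl⟩
    obtain ⟨h0, h1⟩ := mem_stdS.mp hy
    refine mem_stdS.mpr ⟨fun i => ?_, ?_⟩
    · refine Fin.cases ?_ (fun j => ?_) i
      · simpa using ht0
      · simp only [Fin.cons_succ, Pi.smul_apply, smul_eq_mul]
        exact mul_nonneg (by linarith) (h0 j)
    · rw [Fin.sum_univ_succ]
      simp only [Fin.cons_zero, Fin.cons_succ, Pi.smul_apply, smul_eq_mul]
      rw [← Finset.mul_sum]
      nlinarith

lemma isCompact_stdS (N : ℕ) : IsCompact (stdS N) := by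
  induction N with
  | zero => rw [stdS_zero]; exact isCompact_univ
  | succ N ih =>
    rw [stdS_succ]
    exact isCompact_profileSet (by fun_prop) ih

lemma Jw_flip (a m : ℕ) :
    Jw (fun t => 1 - t) a m = ∫ u in (0:ℝ)..1, (1 - u) ^ a * u ^ m := by
  unfold Jw
  rw [← integral_Ioc_eq_integral_Ioo, ← intervalIntegral.integral_of_le zero_le_one]
  have := intervalIntegral.integral_comp_sub_left (a := 0) (b := 1)
    (fun u : ℝ => (1 - u) ^ a * u ^ m) 1
  simp only [sub_sub_cancel, sub_self, sub_zero] at this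
  exact this

lemma Jw_flip_zero (m : ℕ) : Jw (fun t => 1 - t) 0 m = 1 / ((m : ℝ) + 1) := by
  rw [Jw_flip]
  simp [integral_pow]

lemma Jw_flip_one (m : ℕ) :
    Jw (fun t => 1 - t) 1 m = 1 / (((m : ℝ) + 1) * ((m : ℝ) + 2)) := by
  rw [Jw_flip]
  have e : ∀ u : ℝ, (1 - u) ^ 1 * u ^ m = u ^ m - u ^ (m + 1) := by intro u; ring
  simp_rw [e]
  rw [intervalIntegral.integral_sub (by apply Continuous.intervalIntegrable; fun_prop)
    (by apply Continuous.intervalIntegrable; fun_prop), integral_pow, integral_pow]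
  have h1 : ((m : ℝ) + 1) ≠ 0 := by positivity
  have h2 : ((m : ℝ) + 2) ≠ 0 := by positivity
  push_cast
  field_simp
  ring

lemma Jw_flip_two (m : ℕ) :
    Jw (fun t => 1 - t) 2 m = 2 / (((m : ℝ) + 1) * ((m : ℝ) + 2) * ((m : ℝ) + 3)) := by
  rw [Jw_flip]
  have e : ∀ u : ℝ, (1 - u) ^ 2 * u ^ m = u ^ m - 2 * u ^ (m + 1) + u ^ (m + 2) := by
    intro u; ring
  simp_rw [e]
  rw [intervalIntegral.integral_add (by apply Continuous.intervalIntegrable; fun_prop)
    (by apply Continuous.intervalIntegrable; fun_prop),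
    intervalIntegral.integral_sub (by apply Continuous.intervalIntegrable; fun_prop)
    (by apply Continuous.intervalIntegrable; fun_prop), intervalIntegral.integral_const_mul,
    integral_pow, integral_pow, integral_pow]
  have h1 : ((m : ℝ) + 1) ≠ 0 := by positivity
  have h2 : ((m : ℝ) + 2) ≠ 0 := by positivity
  have h3 : ((m : ℝ) + 3) ≠ 0 := by positivity
  push_cast
  field_simp
  ring

lemma flip_pos : ∀ t ∈ Ioo (0 : ℝ) 1, 0 < (fun t : ℝ => 1 - t) t := by
  intro t ht
  simp only
  linarith [ht.2]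

lemma flip_cont : Continuous (fun t : ℝ => 1 - t) := by fun_prop

lemma vol_stdS (N : ℕ) : vol (stdS N) = 1 / (N.factorial : ℝ) := by
  induction N with
  | zero =>
    rw [stdS_zero]
    simp [vol, volume_pi]
  | succ N ih =>
    rw [stdS_succ, vol_profile (isCompact_stdS N) flip_cont flip_pos, ih, Jw_flip_zero,
      Nat.factorial_succ]
    push_cast
    have h1 : ((N : ℝ) + 1) ≠ 0 := by positivity
    have h2 : (N.factorial : ℝ) ≠ 0 := by positivity
    field_simp

lemma mom1_stdS (N : ℕ) (i : Fin N) : mom1 (stdS N) i = 1 / ((N + 1).factorial : ℝ) := by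
  induction N with
  | zero => exact i.elim0
  | succ N ih =>
    have h1 : ((N : ℝ) + 1) ≠ 0 := by positivity
    have h2 : (N.factorial : ℝ) ≠ 0 := by positivity
    have h3 : ((N : ℝ) + 2) ≠ 0 := by positivity
    rw [stdS_succ]
    refine Fin.cases ?_ (fun j => ?_) i
    · rw [mom1_profile_zero (isCompact_stdS N) flip_cont flip_pos, vol_stdS, Jw_flip_one,
        Nat.factorial_succ, Nat.factorial_succ]
      push_cast
      field_simp
      ring
    · rw [mom1_profile_succ (isCompact_stdS N) flip_cont flip_pos, ih, Jw_flip_zero,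
        Nat.factorial_succ (N + 1), Nat.factorial_succ]
      push_cast
      field_simp

lemma mom2_stdS (N : ℕ) (i j : Fin N) : mom2 (stdS N) i j = (if i = j then 2 else 1) / ((N + 2).factorial : ℝ) := by
  induction N with
  | zero => exact i.elim0
  | succ N ih =>
    have h1 : ((N : ℝ) + 1) ≠ 0 := by positivity
    have h2 : (N.factorial : ℝ) ≠ 0 := by positivity
    have h3 : ((N : ℝ) + 2) ≠ 0 := by positivity
    have h4 : ((N : ℝ) + 3) ≠ 0 := by positivity
    have key0 : ∀ k : Fin N, mom2 (stdS (N + 1)) 0 k.succ = 1 / ((N + 1 + 2).factorial : ℝ) := by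
      intro k
      rw [stdS_succ, mom2_profile_zero_succ (isCompact_stdS N) flip_cont flip_pos, mom1_stdS,
        Jw_flip_one, Nat.factorial_succ (N + 2), Nat.factorial_succ (N + 1), Nat.factorial_succ]
      push_cast
      field_simp
      ring
    refine Fin.cases ?_ (fun a => ?_) i
    · refine Fin.cases ?_ (fun b => ?_) j
      · rw [stdS_succ, mom2_profile_zero_zero (isCompact_stdS N) flip_cont flip_pos, vol_stdS,
          Jw_flip_two, Nat.factorial_succ (N + 2), Nat.factorial_succ (N + 1),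
          Nat.factorial_succ]
        push_cast
        simp only [if_true]
        field_simp
        ring
      · rw [key0, if_neg (Fin.succ_ne_zero b).symm]
    · refine Fin.cases ?_ (fun b => ?_) j
      · rw [mom2_comm, key0, if_neg (Fin.succ_ne_zero a)]
      · rw [stdS_succ, mom2_profile_succ_succ (isCompact_stdS N) flip_cont flip_pos, ih,
          Jw_flip_zero, Nat.factorial_succ (N + 2)]
        simp only [Fin.succ_inj]
        push_cast
        have h5 : ((N + 2).factorial : ℝ) ≠ 0 := by positivity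
        field_simp

end Vale.Agent.P254
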